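import Vale.Agent.P091.Poly

/-!
# The exceptional set
-/

open Finset Real MeasureTheory

namespace Vale.Agent.P091

/-- The sine near the zeros. -/
theorem sin_round (y : ℝ) : 2 * |y - round y| ≤ |sin (π * y)| := by
  have hπ := pi_pos
  have h1 : π * y = π * (y - round y) + (round y : ℤ) * π := by ring
  rw [h1, sin_add_int_mul_pi, abs_mul]
  have h2 : |(-1 : ℝ) ^ round y| = 1 := by
    rw [abs_zpow, abs_neg, abs_one, one_zpow]
  rw [h2, one_mul]
  set d := y - round y with hd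
  have h3 : |d| ≤ 1 / 2 := abs_sub_round y
  rcases le_total 0 d with h | h
  · rw [abs_of_nonneg h] at h3 ⊢
    have h4 : 2 / π * (π * d) ≤ sin (π * d) := mul_le_sin (by positivity) (by nlinarith)
    have h5 : 2 / π * (π * d) = 2 * d := by field_simp
    rw [h5] at h4
    exact h4.trans (le_abs_self _)
  · rw [abs_of_nonpos h] at h3 ⊢
    have h4 : 2 / π * (π * -d) ≤ sin (π * -d) :=
      mul_le_sin (mul_nonneg hπ.le (by linarith)) (by nlinarith)
    have h5 : 2 / π * (π * -d) = 2 * -d := by field_simp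
    rw [h5, mul_neg π d, sin_neg] at h4
    exact h4.trans (neg_le_abs _)

theorem volume_biUnion_Icc {ι : Type*} (s : Finset ι) (f g : ι → ℝ) {δ : ℝ}
    (h : ∀ i ∈ s, g i - f i ≤ δ) :
    volume (⋃ i ∈ s, Set.Icc (f i) (g i)) ≤ ENNReal.ofReal (s.card * δ) := by
  refine (measure_biUnion_finset_le s _).trans ?_
  calc ∑ i ∈ s, volume (Set.Icc (f i) (g i)) ≤ ∑ _i ∈ s, ENNReal.ofReal δ := by
        refine sum_le_sum fun i hi => ?_
        rw [Real.volume_Icc]
        exact ENNReal.ofReal_le_ofReal (h i hi)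
    _ = ENNReal.ofReal (s.card * δ) := by
        rw [sum_const, nsmul_eq_mul, ENNReal.ofReal_mul (by positivity), ENNReal.ofReal_natCast]

/-- The bad points have small measure. -/
theorem exists_bad {ε : ℝ} (hε : 0 < ε) (hε1 : ε ≤ 1 / 2) :
    ∃ C : ℕ, 0 < C ∧ ∀ K : ℕ, 128 / ε ≤ K → ∃ h : Hsh K (C * K), ∃ B : Set ℝ,
      volume B ≤ ENNReal.ofReal (8 * ε) ∧ ∀ θ, 0 < θ → θ ≤ 1 → θ ∉ B →
        ∃ n : ℕ, 2 ^ K ≤ n ∧ n ≤ 2 ^ (K + K * (C * K) + 2) ∧
          ε / 64 * K + 1 ≤ |Sm h n θ| := by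
  refine ⟨⌈6144 / ε ^ 3⌉₊, Nat.ceil_pos.mpr (by positivity), fun K hK => ?_⟩
  have hC : 6144 / ε ^ 3 ≤ (⌈6144 / ε ^ 3⌉₊ : ℝ) := Nat.le_ceil _
  have hC0 : 0 < ⌈6144 / ε ^ 3⌉₊ := Nat.ceil_pos.mpr (by positivity)
  set C := ⌈6144 / ε ^ 3⌉₊ with hCdef
  have hεK : 128 ≤ ε * K := by
    rw [div_le_iff₀ hε] at hK
    linarith
  have hK2 : (256 : ℝ) ≤ K := by nlinarith
  have hK256 : 256 ≤ K := by exact_mod_cast hK2
  have hM : 0 < C * K := by positivity
  have hm : (0 : ℝ) < 2 ^ K := by positivity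
  obtain ⟨h, hh⟩ := exists_hash (K := K) hM (wt ε K) (fun J j => wt_nonneg hε K J j)
    (W := 3 / ε * (K + 1)) (fun J hJ => sum_wt hε hJ)
  set V : ℕ → ℝ := fun J => ∑ j ∈ range (2 ^ K), wt ε K J j * err h J j with hV
  have hV0 : ∀ J, 0 ≤ V J := fun J =>
    sum_nonneg fun j _ => mul_nonneg (wt_nonneg hε K J j) (err_nonneg h J j)
  have hVs : ∑ J ∈ range (2 ^ K), V J ≤ 2 ^ K * (ε ^ 2 * K / 64) := by
    refine hh.trans (mul_le_mul_of_nonneg_left ?_ hm.le)
    have hC' : (0 : ℝ) < C := by exact_mod_cast hC0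
    have e1 : 3 / ε * ((K : ℝ) + 1) * (16 * K / ((C * K : ℕ) : ℝ)) = 48 * (K + 1) / (ε * C) := by
      push_cast
      have : (K : ℝ) ≠ 0 := by positivity
      field_simp
      ring
    rw [e1, div_le_div_iff₀ (by positivity) (by norm_num)]
    rw [div_le_iff₀ (by positivity)] at hC
    have e2 : ε ^ 2 * K * (ε * C) = (C * ε ^ 3) * K := by ring
    rw [e2]
    nlinarith
  set bad := (range (2 ^ K)).filter (fun J => ε * K / 64 < V J) with hbad
  have hcard : (bad.card : ℝ) * (1 / 2 ^ K) ≤ ε := by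
    have h1 : (bad.card : ℝ) * (ε * K / 64) ≤ 2 ^ K * (ε ^ 2 * K / 64) := by
      refine le_trans ?_ hVs
      calc (bad.card : ℝ) * (ε * K / 64) = ∑ _J ∈ bad, ε * K / 64 := by
            rw [sum_const, nsmul_eq_mul]
        _ ≤ ∑ J ∈ bad, V J := sum_le_sum fun J hJ => (mem_filter.mp hJ).2.le
        _ ≤ _ := sum_le_sum_of_subset_of_nonneg (filter_subset _ _) fun J _ _ => hV0 J
    have h2 : (bad.card : ℝ) * (ε * K / 64) ≤ (ε * 2 ^ K) * (ε * K / 64) := by
      refine h1.trans (le_of_eq ?_)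
      ring
    have h3 := le_of_mul_le_mul_right h2 (by positivity)
    rw [mul_one_div, div_le_iff₀ hm]
    exact h3
  set L : ℕ := 2 ^ K * 2 ^ (K * (C * K)) with hL
  have hL1 : 1 ≤ L := Nat.one_le_iff_ne_zero.mpr (by positivity)
  have hL1' : (1 : ℝ) ≤ L := by exact_mod_cast hL1
  refine ⟨h, (Set.Icc 0 ε ∪ Set.Icc (1 - ε) 1) ∪
    (⋃ j ∈ range (2 ^ K), Set.Icc (atom h j - ε / 2 ^ K) (atom h j + ε / 2 ^ K)) ∪
    (⋃ J ∈ bad, Set.Icc ((J : ℝ) / 2 ^ K) (((J : ℝ) + 1) / 2 ^ K)) ∪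
    (⋃ k ∈ range (2 * L + 1), Set.Icc ((k : ℝ) / (2 * L) - ε / (2 * L))
      ((k : ℝ) / (2 * L) + ε / (2 * L))), ?_, ?_⟩
  · have v1 : volume (Set.Icc 0 ε ∪ Set.Icc (1 - ε) 1) ≤ ENNReal.ofReal (2 * ε) := by
      refine (measure_union_le _ _).trans ?_
      rw [Real.volume_Icc, Real.volume_Icc, ← ENNReal.ofReal_add (by linarith) (by linarith)]
      exact ENNReal.ofReal_le_ofReal (by linarith)
    have v2 : volume (⋃ j ∈ range (2 ^ K), Set.Icc (atom h j - ε / 2 ^ K)
        (atom h j + ε / 2 ^ K)) ≤ ENNReal.ofReal (2 * ε) := by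
      refine (volume_biUnion_Icc _ _ _ (δ := 2 * ε / 2 ^ K) fun j _ => le_of_eq (by ring)).trans ?_
      refine ENNReal.ofReal_le_ofReal (le_of_eq ?_)
      rw [card_range]
      push_cast
      field_simp
    have v3 : volume (⋃ J ∈ bad, Set.Icc ((J : ℝ) / 2 ^ K) (((J : ℝ) + 1) / 2 ^ K)) ≤
        ENNReal.ofReal ε := by
      refine (volume_biUnion_Icc _ _ _ (δ := 1 / 2 ^ K) fun j _ => le_of_eq (by ring)).trans ?_
      exact ENNReal.ofReal_le_ofReal hcard
    have v4 : volume (⋃ k ∈ range (2 * L + 1), Set.Icc ((k : ℝ) / (2 * L) - ε / (2 * L))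
      ((k : ℝ) / (2 * L) + ε / (2 * L))) ≤ ENNReal.ofReal (3 * ε) := by
      refine (volume_biUnion_Icc _ _ _ (δ := ε / L) fun j _ => le_of_eq ?_).trans ?_
      · field_simp
        ring
      · refine ENNReal.ofReal_le_ofReal ?_
        rw [card_range, mul_div_assoc', div_le_iff₀ (by positivity)]
        push_cast
        nlinarith
    refine (measure_union_le _ _).trans ?_
    refine (add_le_add (measure_union_le _ _) v4).trans ?_
    refine (add_le_add (add_le_add (measure_union_le _ _) v3) le_rfl).trans ?_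
    refine (add_le_add (add_le_add (add_le_add v1 v2) le_rfl) le_rfl).trans ?_
    rw [← ENNReal.ofReal_add (by positivity) (by positivity),
      ← ENNReal.ofReal_add (by positivity) (by positivity),
      ← ENNReal.ofReal_add (by positivity) (by positivity)]
    exact ENNReal.ofReal_le_ofReal (by linarith)
  · intro θ hθ0 hθ1 hθ
    simp only [Set.mem_union, not_or, Set.mem_iUnion, not_exists, Set.mem_Icc, not_and,
      not_le] at hθ
    obtain ⟨⟨⟨⟨b1, b2⟩, b3⟩, b4⟩, b5⟩ := hθ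
    have b1' := b1 hθ0.le
    have b2' : θ < 1 - ε := by
      by_contra hcon
      exact absurd (b2 (not_lt.mp hcon)) (not_lt.mpr hθ1)
    set J := ⌊2 ^ K * θ⌋₊ with hJ
    have hJ1 : (J : ℝ) ≤ 2 ^ K * θ := Nat.floor_le (by positivity)
    have hJ2 : 2 ^ K * θ < (J : ℝ) + 1 := Nat.lt_floor_add_one _
    have hJ3 : J < 2 ^ K := by
      have : (J : ℝ) < 2 ^ K := by nlinarith
      exact_mod_cast this
    have hP : Pt h ε θ J := by
      refine ⟨hM, hε, hε1, b1'.le, b2'.le, hJ3, ?_, ?_, ?_⟩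
      · rw [div_le_iff₀ hm]
        linarith
      · rw [lt_div_iff₀ hm]
        linarith
      · intro j hj
        by_contra hcon
        push Not at hcon
        rw [abs_lt] at hcon
        have := b3 j (mem_range.mpr hj) (by linarith)
        linarith
    have hJb : V J ≤ ε * K / 64 := by
      by_contra hcon
      push Not at hcon
      have := b4 J (mem_filter.mpr ⟨mem_range.mpr hJ3, hcon⟩) hP.h1
      have := hP.h2
      linarith
    have hs : 2 * ε ≤ |sin (2 * π * (2 ^ K * 2 ^ (K * (C * K))) * θ)| := by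
      have e : 2 * π * (2 ^ K * 2 ^ (K * (C * K))) * θ = π * (2 * L * θ) := by
        rw [hL]
        push_cast
        ring
      rw [e]
      refine le_trans ?_ (sin_round (2 * L * θ))
      by_contra hcon
      push Not at hcon
      have hcon' : |2 * L * θ - round (2 * L * θ)| < ε := by linarith
      have hr0 : (0 : ℤ) ≤ round (2 * L * θ) := by
        rw [abs_lt] at hcon'
        have h0 : 0 < 2 * L * θ := by positivity
        have : (-1 : ℝ) < round (2 * L * θ) := by linarith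
        have : (-1 : ℤ) < round (2 * L * θ) := by exact_mod_cast this
        omega
      have hr1 : round (2 * L * θ) ≤ 2 * L := by
        rw [abs_lt] at hcon'
        have h0 : 2 * L * θ ≤ 2 * L := by nlinarith
        have : (round (2 * L * θ) : ℝ) < 2 * L + 1 := by linarith
        have : round (2 * L * θ) < 2 * (L : ℤ) + 1 := by exact_mod_cast this
        omega
      obtain ⟨k, hk⟩ := Int.eq_ofNat_of_zero_le hr0
      rw [hk, Int.cast_natCast, abs_lt] at hcon'
      rw [hk] at hr1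
      have hL0 : (0 : ℝ) < 2 * L := by positivity
      have c1 : (k : ℝ) / (2 * L) - ε / (2 * L) ≤ θ := by
        rw [← sub_div, div_le_iff₀ hL0]
        linarith
      have c2 := b5 k (mem_range.mpr (by omega)) c1
      rw [← add_div, div_lt_iff₀ hL0] at c2
      linarith
    obtain ⟨n, hn1, hn2, hn3⟩ := hP.large (by omega) hε.le hs
    refine ⟨n, hn1, hn2, le_trans ?_ hn3⟩
    have e3 : ε * (((K : ℝ) - 2) / 16 - 1 / ε) = ε * K / 16 - ε / 8 - 1 := by
      field_simp
      ring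
    rw [e3]
    have hVJ : ∑ j ∈ range (2 ^ K), wt ε K J j * err h J j = V J := rfl
    rw [hVJ]
    linarith

end Vale.Agent.P091
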