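import Mathlib

/-!
# Hashing the dyadic tree
-/

open Finset

namespace Vale.Agent.P091

/-- Exactly one dyadic level separates `J < j`. -/
theorem sum_sep (K : ℕ) : ∀ J j : ℕ, J < 2 ^ K → j < 2 ^ K →
    ∑ t ∈ range K, (if (J / 2 ^ t) % 2 = 0 ∧ j / 2 ^ t = J / 2 ^ t + 1 then 1 else 0) =
      if J < j then 1 else 0 := by
  induction K with
  | zero =>
    intro J j hJ hj
    simp at hJ hj
    subst hJ hj
    simp
  | succ K ih =>
    intro J j hJ hj
    rw [sum_range_succ']
    have h := ih (J / 2) (j / 2) (by rw [pow_succ] at hJ; omega) (by rw [pow_succ] at hj; omega)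
    have e : ∀ t, ((J / 2 ^ (t + 1)) % 2 = 0 ∧ j / 2 ^ (t + 1) = J / 2 ^ (t + 1) + 1) ↔
        ((J / 2 / 2 ^ t) % 2 = 0 ∧ j / 2 / 2 ^ t = J / 2 / 2 ^ t + 1) := by
      intro t
      rw [Nat.div_div_eq_div_mul, Nat.div_div_eq_div_mul, pow_succ, mul_comm (2 ^ t) 2]
    rw [sum_congr rfl fun t _ => if_congr (e t) rfl rfl, h]
    simp only [pow_zero, Nat.div_one]
    split_ifs <;> omega

/-- Averaging over one coordinate. -/
theorem sum_hash {ι : Type*} [Fintype ι] [DecidableEq ι] {M : ℕ} (hM : 0 < M)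
    {p p' : ι} (h : p ≠ p') (F : Fin M → Fin M → ℝ) {B : ℝ}
    (hF : ∀ b, ∑ a, F a b ≤ B) :
    ∑ h : ι → Fin M, F (h p) (h p') ≤ Fintype.card (ι → Fin M) * (B / M) := by
  classical
  have e := (Equiv.funSplitAt p (Fin M)).symm.sum_comp (fun h => F (h p) (h p'))
  rw [← e, Fintype.sum_prod_type_right]
  have hc : Fintype.card (ι → Fin M) = M * Fintype.card ({j // j ≠ p} → Fin M) := by
    rw [Fintype.card_congr (Equiv.funSplitAt p (Fin M)), Fintype.card_prod, Fintype.card_fin]
  have hM' : (M : ℝ) ≠ 0 := by exact_mod_cast hM.ne'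
  calc ∑ y : {j // j ≠ p} → Fin M, ∑ x : Fin M,
        F ((Equiv.funSplitAt p (Fin M)).symm (x, y) p)
          ((Equiv.funSplitAt p (Fin M)).symm (x, y) p')
      ≤ ∑ _y : {j // j ≠ p} → Fin M, B := by
        refine sum_le_sum fun y _ => ?_
        have h1 : ∀ x : Fin M, (Equiv.funSplitAt p (Fin M)).symm (x, y) p = x := by
          intro x; simp [Equiv.funSplitAt, Equiv.piSplitAt]
        have h2 : ∀ x : Fin M, (Equiv.funSplitAt p (Fin M)).symm (x, y) p' = y ⟨p', h.symm⟩ := by
          intro x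
          simp [Equiv.funSplitAt, Equiv.piSplitAt, h.symm]
        simp only [h1, h2]
        exact hF _
    _ = Fintype.card (ι → Fin M) * (B / M) := by
        rw [sum_const, card_univ, nsmul_eq_mul, hc]
        push_cast
        field_simp

/-- The sum of the small powers of two. -/
theorem sum_half_pow (M : ℕ) : ∑ a ∈ range M, (1 / 2 : ℝ) ^ (M - a + 1) ≤ 1 / 2 := by
  have h : ∑ a ∈ range M, (1 / 2 : ℝ) ^ (M - a + 1) = 1 / 2 - (1 / 2) ^ (M + 1) := by
    induction M with
    | zero => simp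
    | succ M ih =>
      rw [sum_range_succ']
      have : ∀ a ∈ range M, (1 / 2 : ℝ) ^ (M + 1 - (a + 1) + 1) = (1 / 2) ^ (M - a + 1) := by
        intro a _
        congr 1
        omega
      rw [sum_congr rfl this, ih]
      simp only [Nat.sub_zero]
      ring
  rw [h]
  have : (0 : ℝ) ≤ (1 / 2) ^ (M + 1) := by positivity
  linarith

end Vale.Agent.P091
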