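import Vale.Agent.P091.Bad

/-!
# Polynomials with large partial sums
-/

open Finset Real MeasureTheory AddCircle
open scoped Pointwise

namespace Vale.Agent.P091

variable {T : ℝ} [hT : Fact (0 < T)]

/-- The partial sums of a coefficient sequence. -/
noncomputable def psum (a : ℤ → ℂ) (n : ℕ) (x : AddCircle T) : ℂ :=
  ∑ k ∈ Icc (-(n : ℤ)) n, a k * fourier k x

/-- A nonnegative polynomial with large partial sums. -/
structure Good (T : ℝ) [hT : Fact (0 < T)] (ε c : ℝ) (K R : ℕ) (a : ℤ → ℂ)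
    (p : AddCircle T → ℝ) : Prop where
  nonneg : ∀ x, 0 ≤ p x
  eq : ∀ x, (p x : ℂ) = psum a R x
  zero : a 0 = 1
  norm : ∀ k, ‖a k‖ ≤ 1
  supp : ∀ k : ℤ, (R : ℤ) < |k| → a k = 0
  big : 2 ^ K ≤ R
  bad : haarAddCircle {x : AddCircle T | ∀ n : ℕ, 2 ^ K ≤ n → n ≤ R →
    ‖psum a n x‖ < c * K} ≤ ENNReal.ofReal ε

theorem fourier_eq_ee (k : ℤ) (θ : ℝ) :
    fourier k ((T * θ : ℝ) : AddCircle T) = ee k θ := by
  have hT0 : (T : ℂ) ≠ 0 := by exact_mod_cast hT.out.ne'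
  rw [fourier_coe_apply]
  unfold ee
  congr 1
  push_cast
  field_simp

theorem psum_coe (a : ℤ → ℂ) (n : ℕ) (θ : ℝ) :
    psum a n ((T * θ : ℝ) : AddCircle T) = ∑ k ∈ Icc (-(n : ℤ)) n, a k * ee k θ := by
  unfold psum
  simp_rw [fourier_eq_ee]

omit hT in
theorem continuous_psum (a : ℤ → ℂ) (n : ℕ) : Continuous (psum (T := T) a n) := by
  unfold psum
  exact continuous_finsetSum _ fun k _ => continuous_const.mul (fourier k).continuous

/-- Transfer of a null bound from the line. -/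
theorem haar_le {E : Set (AddCircle T)} (hE : MeasurableSet E) {B : Set ℝ} {δ : ℝ}
    (hB : volume B ≤ ENNReal.ofReal δ)
    (h : ∀ θ : ℝ, 0 < θ → θ ≤ 1 → ((T * θ : ℝ) : AddCircle T) ∈ E → θ ∈ B) :
    haarAddCircle E ≤ ENNReal.ofReal δ := by
  have hT0 := hT.out
  have h1 := AddCircle.add_projection_respects_measure T 0 hE
  rw [volume_eq_smul_haarAddCircle, Measure.smul_apply, smul_eq_mul] at h1
  have h2 : QuotientAddGroup.mk ⁻¹' E ∩ Set.Ioc 0 (0 + T) ⊆ (fun θ => T * θ) '' B := by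
    rintro y ⟨hy1, hy2⟩
    rw [zero_add] at hy2
    refine ⟨y / T, h (y / T) (div_pos hy2.1 hT0) ?_ ?_, ?_⟩
    · rw [div_le_one hT0]
      exact hy2.2
    · rw [mul_div_cancel₀ _ hT0.ne']
      exact hy1
    · exact mul_div_cancel₀ _ hT0.ne'
  have h3 : volume ((fun θ => T * θ) '' B) = ENNReal.ofReal T * volume B := by
    have e : (fun θ => T * θ) '' B = T • B := by
      ext y
      simp [Set.mem_smul_set]
    rw [e, Measure.addHaar_smul]
    simp [abs_of_pos hT0]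
  have h4 : ENNReal.ofReal T * haarAddCircle E ≤ ENNReal.ofReal T * ENNReal.ofReal δ := by
    rw [h1]
    refine (measure_mono h2).trans ?_
    rw [h3]
    exact mul_le_mul_right hB _
  have h5 : ENNReal.ofReal T ≠ 0 := by simp [hT0]
  exact (ENNReal.mul_le_mul_iff_right h5 ENNReal.ofReal_ne_top).mp h4

theorem exists_coe (x : AddCircle T) : ∃ θ : ℝ, ((T * θ : ℝ) : AddCircle T) = x := by
  obtain ⟨y, rfl⟩ := QuotientAddGroup.mk_surjective x
  refine ⟨y / T, ?_⟩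
  rw [mul_div_cancel₀ _ hT.out.ne']

/-- The key lemma. -/
theorem exists_good (T : ℝ) [hT : Fact (0 < T)] {δ : ℝ} (hδ : 0 < δ) :
    ∃ c : ℝ, 0 < c ∧ ∃ C : ℕ, ∃ K₀ : ℕ, ∀ K ≥ K₀, ∃ R ≤ 2 ^ (C * K ^ 2), ∃ a p,
      Good T δ c K R a p := by
  set ε : ℝ := min (δ / 8) (1 / 2) with hεdef
  have hε : 0 < ε := by positivity
  have hε1 : ε ≤ 1 / 2 := min_le_right _ _
  have hε2 : 8 * ε ≤ δ := by
    have : ε ≤ δ / 8 := min_le_left _ _
    linarith
  obtain ⟨C, hC, hmain⟩ := exists_bad hε hε1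
  refine ⟨ε / 64, by positivity, 2 * C + 8, ⌈128 / ε⌉₊ + 1, fun K hK => ?_⟩
  have hK1 : 128 / ε ≤ K := by
    have h1 := Nat.le_ceil (128 / ε)
    have h2 : ((⌈128 / ε⌉₊ + 1 : ℕ) : ℝ) ≤ K := by exact_mod_cast hK
    push_cast at h2
    linarith
  have hK0 : 1 ≤ K := by omega
  obtain ⟨h, B, hB, hgood⟩ := hmain K hK1
  set e : ℕ := K + K * (C * K) + 2 with he
  have heR : 4 ^ (e + 1) = 2 ^ (2 * (e + 1)) := by
    rw [pow_mul]
    norm_num
  refine ⟨4 ^ (e + 1), ?_, aa h (4 ^ (e + 1)),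
    fun x => (psum (aa h (4 ^ (e + 1))) (4 ^ (e + 1)) x).re, ?_⟩
  · rw [heR]
    refine Nat.pow_le_pow_right (by norm_num) ?_
    rw [he]
    have : K ≤ K ^ 2 := Nat.le_self_pow (by norm_num) K
    have : 1 ≤ K ^ 2 := Nat.one_le_pow _ _ hK0
    nlinarith
  have hval : ∀ θ : ℝ, psum (aa h (4 ^ (e + 1))) (4 ^ (e + 1)) ((T * θ : ℝ) : AddCircle T) =
      ((1 / (((4 ^ (e + 1) : ℕ) : ℝ) + 1) * ∑ n ∈ range (4 ^ (e + 1) + 1), Sm h n θ : ℝ) : ℂ) :=
    fun θ => by rw [psum_coe, sum_aa]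
  refine ⟨?_, ?_, aa_zero h _, norm_aa h _, fun k hk => aa_of_lt h hk, ?_, ?_⟩
  · intro x
    obtain ⟨θ, rfl⟩ := exists_coe x
    rw [hval, Complex.ofReal_re]
    exact sum_Sm_nonneg h _ θ
  · intro x
    obtain ⟨θ, rfl⟩ := exists_coe x
    rw [hval, Complex.ofReal_re]
  · rw [heR]
    exact Nat.pow_le_pow_right (by norm_num) (by rw [he]; omega)
  · refine haar_le ?_ (hB.trans (ENNReal.ofReal_le_ofReal hε2)) ?_
    · have hset : {x : AddCircle T | ∀ n : ℕ, 2 ^ K ≤ n → n ≤ 4 ^ (e + 1) →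
          ‖psum (aa h (4 ^ (e + 1))) n x‖ < ε / 64 * K} =
          ⋂ n : ℕ, {x : AddCircle T | 2 ^ K ≤ n → n ≤ 4 ^ (e + 1) →
            ‖psum (aa h (4 ^ (e + 1))) n x‖ < ε / 64 * K} := by
        ext x
        simp
      rw [hset]
      refine MeasurableSet.iInter fun n => ?_
      by_cases h1 : 2 ^ K ≤ n
      · by_cases h2 : n ≤ 4 ^ (e + 1)
        · simp only [h1, h2, true_imp_iff]
          exact (isOpen_lt (continuous_psum _ _).norm continuous_const).measurableSet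
        · simp [h2]
      · simp [h1]
    · intro θ hθ0 hθ1 hθ
      by_contra hcon
      obtain ⟨n, hn1, hn2, hn3⟩ := hgood θ hθ0 hθ1 hcon
      have hn4 : n * (2 * n + 1) ≤ 4 ^ (e + 1) := by
        have h4 : 4 ^ e = 2 ^ e * 2 ^ e := by
          rw [← mul_pow]
          norm_num
        have h1 : 1 ≤ 2 ^ e := Nat.one_le_two_pow
        rw [pow_succ, h4]
        nlinarith
      have hn5 : n ≤ 4 ^ (e + 1) := by nlinarith
      have h6 := hθ n hn1 hn5
      rw [psum_coe] at h6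
      have h7 := norm_sum_aa_sub h hn4 θ
      have h8 : ‖((Sm h n θ : ℝ) : ℂ)‖ = |Sm h n θ| := by
        rw [Complex.norm_real, norm_eq_abs]
      have h9 := norm_sub_norm_le ((Sm h n θ : ℝ) : ℂ)
        (∑ k ∈ Icc (-(n : ℤ)) n, aa h (4 ^ (e + 1)) k * ee k θ)
      rw [norm_sub_rev] at h7
      linarith

end Vale.Agent.P091
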