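import Vale.Agent.P091.Comb

/-!
# Sparse digits
-/

open Finset

namespace Vale.Agent.P091

/-- The key of a node. -/
def key (K t ν : ℕ) : Fin (K + 1) × Fin (2 ^ K + 1) :=
  (Fin.ofNat (K + 1) t, Fin.ofNat (2 ^ K + 1) ν)

theorem key_inj {K t t' ν ν' : ℕ} (ht : t ≤ K) (ht' : t' ≤ K) (hν : ν ≤ 2 ^ K)
    (hν' : ν' ≤ 2 ^ K) (h : key K t ν = key K t' ν') : t = t' ∧ ν = ν' := by
  unfold key at h
  rw [Prod.mk.injEq, Fin.ext_iff, Fin.ext_iff] at h
  simp only [Fin.val_ofNat] at h
  rw [Nat.mod_eq_of_lt (by omega), Nat.mod_eq_of_lt (by omega), Nat.mod_eq_of_lt (by omega),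
    Nat.mod_eq_of_lt (by omega)] at h
  exact h

variable {K M : ℕ}

/-- The labelled trees. -/
abbrev Hsh (K M : ℕ) := Fin (K + 1) × Fin (2 ^ K + 1) → Fin M

/-- The position of a digit. -/
def pos (h : Hsh K M) (t ν : ℕ) : ℕ := t * M + (h (key K t ν)).val

/-- The level `t` is active for `J`. -/
abbrev act (J t : ℕ) : Prop := (J / 2 ^ t) % 2 = 0

/-- The integer attached to the target `J`. -/
def qq (h : Hsh K M) (J : ℕ) : ℕ :=
  ∑ t ∈ range K, if act J t then 2 ^ pos h t (J / 2 ^ t + 1) else 0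

/-- The shift of the atom `j`. -/
noncomputable def yy (h : Hsh K M) (j : ℕ) : ℝ :=
  ∑ t ∈ range K, (1 / 2 : ℝ) ^ (pos h t (j / 2 ^ t) + 1)

/-- The number of false matches. -/
def cc (h : Hsh K M) (J j : ℕ) : ℕ :=
  ∑ t ∈ range K, if act J t ∧ j / 2 ^ t ≠ J / 2 ^ t + 1 ∧
    h (key K t (J / 2 ^ t + 1)) = h (key K t (j / 2 ^ t)) then 1 else 0

/-- The cross phase. -/
noncomputable def dd (h : Hsh K M) (J j : ℕ) : ℝ :=
  ∑ t ∈ range K, ∑ t' ∈ range K,
    if act J t ∧ pos h t (J / 2 ^ t + 1) < pos h t' (j / 2 ^ t') then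
      (1 / 2 : ℝ) ^ (pos h t' (j / 2 ^ t') - pos h t (J / 2 ^ t + 1) + 1) else 0

theorem pos_lt {h : Hsh K M} {t t' ν ν' : ℕ} (ht : t < t') : pos h t ν < pos h t' ν' := by
  unfold pos
  have h1 := (h (key K t ν)).isLt
  have h2 : (t + 1) * M ≤ t' * M := Nat.mul_le_mul_right _ ht
  rw [Nat.add_mul] at h2
  omega

theorem pos_lt_top (h : Hsh K M) {t ν : ℕ} (ht : t < K) : pos h t ν < K * M := by
  unfold pos
  have h1 := (h (key K t ν)).isLt
  have h2 : (t + 1) * M ≤ K * M := Nat.mul_le_mul_right _ ht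
  rw [Nat.add_mul] at h2
  omega

theorem le_pos (h : Hsh K M) (hM : 0 < M) (t ν : ℕ) : t ≤ pos h t ν := by
  unfold pos
  have := Nat.le_mul_of_pos_right t hM
  omega

theorem qq_le (h : Hsh K M) (J : ℕ) : qq h J < 2 ^ (K * M + 1) := by
  have hk : ∀ k ≤ K, ∑ t ∈ range k, (if act J t then 2 ^ pos h t (J / 2 ^ t + 1) else 0) <
      2 ^ (k * M + 1) := by
    intro k
    induction k with
    | zero => intro _; simp
    | succ k ih =>
      intro hk
      rw [sum_range_succ]
      have h1 := ih (by omega)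
      have h2 : pos h k (J / 2 ^ k + 1) < (k + 1) * M := by
        unfold pos
        have h1 := (h (key K k (J / 2 ^ k + 1))).isLt
        rw [Nat.add_mul]
        omega
      have hM : 0 < M := (h (key K k (J / 2 ^ k + 1))).pos
      have h3 : 2 ^ pos h k (J / 2 ^ k + 1) * 2 ≤ 2 ^ ((k + 1) * M) := by
        rw [← pow_succ]
        exact Nat.pow_le_pow_right (by norm_num) h2
      have h4 : 2 ^ (k * M + 1) ≤ 2 ^ ((k + 1) * M) := by
        refine Nat.pow_le_pow_right (by norm_num) ?_
        rw [Nat.add_mul]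
        omega
      have h5 : 2 ^ ((k + 1) * M + 1) = 2 ^ ((k + 1) * M) * 2 := pow_succ _ _
      split_ifs <;> omega
  exact hk K le_rfl

theorem yy_nonneg (h : Hsh K M) (j : ℕ) : 0 ≤ yy h j :=
  sum_nonneg fun _ _ => by positivity

theorem yy_le (h : Hsh K M) (hM : 0 < M) (j : ℕ) : yy h j ≤ 1 := by
  have h1 : ∀ k, ∑ t ∈ range k, (1 / 2 : ℝ) ^ (t + 1) = 1 - (1 / 2) ^ k := by
    intro k
    induction k with
    | zero => simp
    | succ k ih => rw [sum_range_succ, ih]; ring
  calc yy h j ≤ ∑ t ∈ range K, (1 / 2 : ℝ) ^ (t + 1) := by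
        refine sum_le_sum fun t _ => ?_
        exact pow_le_pow_of_le_one (by norm_num) (by norm_num)
          (Nat.succ_le_succ (le_pos h hM t _))
    _ ≤ 1 := by
        rw [h1]
        have : (0 : ℝ) ≤ (1 / 2) ^ K := by positivity
        linarith

/-- Large powers of two clear the digits. -/
theorem exists_nat_yy (h : Hsh K M) (j : ℕ) : ∃ z : ℕ, (2 : ℝ) ^ (K * M) * yy h j = z := by
  refine ⟨∑ t ∈ range K, 2 ^ (K * M - (pos h t (j / 2 ^ t) + 1)), ?_⟩
  unfold yy
  rw [mul_sum, Nat.cast_sum]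
  refine sum_congr rfl fun t ht => ?_
  have h1 := pos_lt_top h (ν := j / 2 ^ t) (mem_range.mp ht)
  push_cast
  obtain ⟨r, hr⟩ := Nat.exists_eq_add_of_le (show pos h t (j / 2 ^ t) + 1 ≤ K * M by omega)
  have e : (2 : ℝ) ^ (K * M) =
      2 ^ (pos h t (j / 2 ^ t) + 1) * 2 ^ (K * M - (pos h t (j / 2 ^ t) + 1)) := by
    rw [← pow_add]
    congr 1
    omega
  rw [e, one_div, inv_pow]
  field_simp

theorem two_pow_mul (f g : ℕ) : (2 : ℝ) ^ f * (1 / 2) ^ (g + 1) =
    ((if g < f then 2 ^ (f - g - 1) else 0 : ℕ) : ℝ) +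
      ((if f = g then 1 else 0 : ℕ) : ℝ) / 2 + (if f < g then (1 / 2 : ℝ) ^ (g - f + 1) else 0) := by
  rcases lt_trichotomy f g with h | h | h
  · obtain ⟨r, rfl⟩ := Nat.exists_eq_add_of_lt h
    rw [if_neg (by omega), if_neg (by omega), if_pos (by omega)]
    have : f + r + 1 - f + 1 = r + 2 := by omega
    rw [this, show f + r + 1 + 1 = f + (r + 2) by ring, pow_add, ← mul_assoc, ← mul_pow]
    norm_num
  · subst h
    simp only [lt_irrefl, if_false, if_true]
    rw [pow_succ, ← mul_assoc, ← mul_pow]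
    norm_num
  · obtain ⟨r, rfl⟩ := Nat.exists_eq_add_of_lt h
    rw [if_pos (by omega), if_neg (by omega), if_neg (by omega)]
    have : g + r + 1 - g - 1 = r := by omega
    rw [this, show g + r + 1 = r + (g + 1) by ring, pow_add, mul_assoc, ← mul_pow]
    norm_num

/-- The phase at the atom `j`. -/
theorem phase (h : Hsh K M) {J j : ℕ} (hJ : J < 2 ^ K) (hj : j < 2 ^ K) :
    ∃ z : ℕ, (qq h J : ℝ) * yy h j =
      z + (((if J < j then 1 else 0) + cc h J j : ℕ) : ℝ) / 2 + dd h J j := by
  refine ⟨∑ t ∈ range K, ∑ t' ∈ range K, if act J t ∧ pos h t' (j / 2 ^ t') <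
    pos h t (J / 2 ^ t + 1) then 2 ^ (pos h t (J / 2 ^ t + 1) - pos h t' (j / 2 ^ t') - 1)
    else 0, ?_⟩
  have ha : (if J < j then 1 else 0) + cc h J j = ∑ t ∈ range K, ∑ t' ∈ range K,
      if act J t ∧ pos h t (J / 2 ^ t + 1) = pos h t' (j / 2 ^ t') then 1 else 0 := by
    rw [← sum_sep K J j hJ hj]
    unfold cc
    rw [← sum_add_distrib]
    refine sum_congr rfl fun t ht => ?_
    rw [sum_eq_single t]
    · by_cases h1 : act J t
      · by_cases h2 : j / 2 ^ t = J / 2 ^ t + 1
        · rw [if_pos ⟨h1, h2⟩, if_neg (by tauto), if_pos ⟨h1, by rw [h2]⟩]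
        · by_cases h3 : h (key K t (J / 2 ^ t + 1)) = h (key K t (j / 2 ^ t))
          · rw [if_neg (by tauto), if_pos ⟨h1, h2, h3⟩, if_pos ⟨h1, by unfold pos; rw [h3]⟩]
          · rw [if_neg (by tauto), if_neg (by tauto), if_neg]
            rintro ⟨_, h4⟩
            unfold pos at h4
            exact h3 (Fin.ext (by omega))
      · rw [if_neg (by tauto), if_neg (by tauto), if_neg (by tauto)]
    · intro t' _ hne
      refine if_neg ?_
      rintro ⟨_, h4⟩
      rcases lt_or_gt_of_ne hne with h5 | h5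
      · have := pos_lt (h := h) (ν := j / 2 ^ t') (ν' := J / 2 ^ t + 1) h5
        omega
      · have := pos_lt (h := h) (ν' := j / 2 ^ t') (ν := J / 2 ^ t + 1) h5
        omega
    · intro h1
      exact absurd ht h1
  rw [ha]
  unfold qq yy dd
  push_cast
  rw [sum_mul_sum, Finset.sum_div, ← sum_add_distrib, ← sum_add_distrib]
  refine sum_congr rfl fun t _ => ?_
  rw [Finset.sum_div, ← sum_add_distrib, ← sum_add_distrib]
  refine sum_congr rfl fun t' _ => ?_
  by_cases h1 : act J t
  · have := two_pow_mul (pos h t (J / 2 ^ t + 1)) (pos h t' (j / 2 ^ t'))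
    rw [if_pos h1, if_congr (and_iff_right h1) rfl rfl, if_congr (and_iff_right h1) rfl rfl,
      if_congr (and_iff_right h1) rfl rfl]
    push_cast at this
    exact this
  · simp [h1]

theorem dd_nonneg (h : Hsh K M) (J j : ℕ) : 0 ≤ dd h J j :=
  sum_nonneg fun _ _ => sum_nonneg fun _ _ => by split_ifs <;> positivity

theorem sum_cc (hM : 0 < M) {J j : ℕ} (hJ : J < 2 ^ K) (hj : j < 2 ^ K) :
    ∑ h : Hsh K M, (cc h J j : ℝ) ≤ Fintype.card (Hsh K M) * (K / M) := by
  unfold cc
  push_cast
  rw [sum_comm]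
  calc ∑ t ∈ range K, ∑ h : Hsh K M, (if act J t ∧ j / 2 ^ t ≠ J / 2 ^ t + 1 ∧
        h (key K t (J / 2 ^ t + 1)) = h (key K t (j / 2 ^ t)) then (1 : ℝ) else 0)
      ≤ ∑ _t ∈ range K, (Fintype.card (Hsh K M) : ℝ) * (1 / M) := by
        refine sum_le_sum fun t ht => ?_
        have ht' := mem_range.mp ht
        have hl : J / 2 ^ t + 1 ≤ 2 ^ K := (Nat.div_le_self _ _).trans_lt hJ
        have hl' : j / 2 ^ t ≤ 2 ^ K := (Nat.div_le_self _ _).trans hj.le
        by_cases h1 : act J t ∧ j / 2 ^ t ≠ J / 2 ^ t + 1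
        · have hk : key K t (J / 2 ^ t + 1) ≠ key K t (j / 2 ^ t) := by
            intro hk
            exact h1.2 (key_inj ht'.le ht'.le hl hl' hk).2.symm
          refine le_trans (sum_le_sum fun h _ => ?_) (sum_hash hM hk
            (fun a b => if a = b then (1 : ℝ) else 0) (B := 1) fun b => ?_)
          · split_ifs <;> tauto
          · rw [sum_ite_eq']
            simp
        · refine le_trans (le_of_eq (sum_eq_zero fun h _ => if_neg (by tauto))) (by positivity)
    _ = _ := by
        rw [sum_const, card_range, nsmul_eq_mul]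
        ring

theorem sum_F {M : ℕ} (hM : 0 < M) {t t' : ℕ} (ht : t ≤ t') (b : Fin M) :
    ∑ a : Fin M, (if t * M + a.val < t' * M + b.val then
      (1 / 2 : ℝ) ^ (t' * M + b.val - (t * M + a.val) + 1) else 0) ≤ (1 / 2) ^ (t' - t) := by
  obtain ⟨r, rfl⟩ := Nat.exists_eq_add_of_le ht
  have hr : t + r - t = r := by omega
  rw [hr]
  rcases Nat.eq_zero_or_pos r with rfl | h0
  · simp only [add_zero, add_lt_add_iff_left, pow_zero]
    rw [Fin.sum_univ_eq_sum_range (fun a => if a < b.val then
      (1 / 2 : ℝ) ^ (t * M + b.val - (t * M + a) + 1) else 0) M, ← sum_filter]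
    have : (range M).filter (· < b.val) = range b.val := by
      ext a
      rw [mem_filter, mem_range, mem_range]
      have := b.isLt
      omega
    rw [this]
    refine le_trans (sum_le_sum fun a ha => ?_) ((sum_half_pow b.val).trans (by norm_num))
    rw [mem_range] at ha
    refine le_of_eq ?_
    congr 1
    omega
  · calc ∑ a : Fin M, (if t * M + a.val < (t + r) * M + b.val then
          (1 / 2 : ℝ) ^ ((t + r) * M + b.val - (t * M + a.val) + 1) else 0)
        ≤ ∑ a : Fin M, (1 / 2 : ℝ) ^ (r - 1) * (1 / 2) ^ (M - a.val + 1) := by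
          refine sum_le_sum fun a _ => ?_
          have ha := a.isLt
          have h1 : (t + r) * M = t * M + (r - 1) * M + M := by
            obtain ⟨s, rfl⟩ := Nat.exists_eq_add_of_lt h0
            simp only [zero_add, Nat.add_sub_cancel]
            ring
          have h2 : r - 1 ≤ (r - 1) * M := Nat.le_mul_of_pos_right _ hM
          split_ifs
          · rw [← pow_add]
            refine pow_le_pow_of_le_one (by norm_num) (by norm_num) ?_
            omega
          · positivity
      _ = (1 / 2) ^ (r - 1) * ∑ a ∈ range M, (1 / 2 : ℝ) ^ (M - a + 1) := by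
          rw [← mul_sum, Fin.sum_univ_eq_sum_range (fun a => (1 / 2 : ℝ) ^ (M - a + 1)) M]
      _ ≤ (1 / 2) ^ (r - 1) * (1 / 2) := by
          refine mul_le_mul_of_nonneg_left (sum_half_pow M) (by positivity)
      _ = (1 / 2) ^ r := by
          rw [← pow_succ]
          congr 1
          omega

theorem sum_geom_le (K t : ℕ) :
    ∑ t' ∈ range K, (if t ≤ t' then (1 / 2 : ℝ) ^ (t' - t) else 0) ≤ 2 := by
  induction t generalizing K with
  | zero =>
    simp only [Nat.zero_le, if_true, Nat.sub_zero]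
    have h1 : ∀ k, ∑ t ∈ range k, (1 / 2 : ℝ) ^ t = 2 - 2 * (1 / 2) ^ k := by
      intro k
      induction k with
      | zero => simp
      | succ k ih => rw [sum_range_succ, ih]; ring
    rw [h1]
    have : (0 : ℝ) ≤ (1 / 2) ^ K := by positivity
    linarith
  | succ t ih =>
    rcases K with _ | K
    · simp
    · rw [sum_range_succ', if_neg (by omega), add_zero]
      refine le_trans (le_of_eq (sum_congr rfl fun t' _ => ?_)) (ih K)
      by_cases h : t ≤ t'
      · rw [if_pos (by omega), if_pos h]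
        congr 1
        omega
      · rw [if_neg (by omega), if_neg h]

theorem sum_dd (hM : 0 < M) {J j : ℕ} (hJ : J < 2 ^ K) (hj : j < 2 ^ K) :
    ∑ h : Hsh K M, dd h J j ≤ Fintype.card (Hsh K M) * (2 * K / M) := by
  unfold dd
  rw [sum_comm]
  calc ∑ t ∈ range K, ∑ h : Hsh K M, ∑ t' ∈ range K,
        (if act J t ∧ pos h t (J / 2 ^ t + 1) < pos h t' (j / 2 ^ t') then
          (1 / 2 : ℝ) ^ (pos h t' (j / 2 ^ t') - pos h t (J / 2 ^ t + 1) + 1) else 0)
      ≤ ∑ _t ∈ range K, (Fintype.card (Hsh K M) : ℝ) * (2 / M) := by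
        refine sum_le_sum fun t ht => ?_
        rw [sum_comm]
        have ht' := mem_range.mp ht
        have hl : J / 2 ^ t + 1 ≤ 2 ^ K := (Nat.div_le_self _ _).trans_lt hJ
        calc ∑ t' ∈ range K, ∑ h : Hsh K M,
              (if act J t ∧ pos h t (J / 2 ^ t + 1) < pos h t' (j / 2 ^ t') then
                (1 / 2 : ℝ) ^ (pos h t' (j / 2 ^ t') - pos h t (J / 2 ^ t + 1) + 1) else 0)
            ≤ ∑ t' ∈ range K, (Fintype.card (Hsh K M) : ℝ) *
              ((if t ≤ t' then (1 / 2 : ℝ) ^ (t' - t) else 0) / M) := by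
              refine sum_le_sum fun t' ht'' => ?_
              have ht3 := mem_range.mp ht''
              have hl' : j / 2 ^ t' ≤ 2 ^ K := (Nat.div_le_self _ _).trans hj.le
              by_cases h1 : act J t
              · by_cases h2 : t ≤ t'
                · by_cases h3 : key K t (J / 2 ^ t + 1) = key K t' (j / 2 ^ t')
                  · obtain ⟨e1, e2⟩ := key_inj ht'.le ht3.le hl hl' h3
                    subst e1
                    refine le_trans (le_of_eq (sum_eq_zero fun h _ => if_neg ?_)) ?_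
                    · rintro ⟨_, h4⟩
                      rw [e2] at h4
                      omega
                    · rw [if_pos le_rfl]
                      positivity
                  · rw [if_pos h2]
                    refine le_trans (sum_le_sum fun h _ => ?_) (sum_hash hM h3
                      (fun a b => if t * M + a.val < t' * M + b.val then
                        (1 / 2 : ℝ) ^ (t' * M + b.val - (t * M + a.val) + 1) else 0)
                      (sum_F hM h2))
                    exact le_of_eq (if_congr (and_iff_right h1) rfl rfl)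
                · rw [if_neg h2]
                  refine le_trans (le_of_eq (sum_eq_zero fun h _ => if_neg ?_)) (by simp)
                  rintro ⟨_, h4⟩
                  have := pos_lt (h := h) (ν := j / 2 ^ t') (ν' := J / 2 ^ t + 1)
                    (show t' < t by omega)
                  omega
              · refine le_trans (le_of_eq (sum_eq_zero fun h _ => if_neg (by tauto))) ?_
                split_ifs <;> positivity
          _ = (Fintype.card (Hsh K M) : ℝ) *
              ((∑ t' ∈ range K, if t ≤ t' then (1 / 2 : ℝ) ^ (t' - t) else 0) / M) := by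
              rw [← mul_sum, sum_div]
          _ ≤ _ := by
              refine mul_le_mul_of_nonneg_left ?_ (by positivity)
              exact div_le_div_of_nonneg_right (sum_geom_le K t) (by positivity)
    _ = _ := by
        rw [sum_const, card_range, nsmul_eq_mul]
        ring

/-- The error. -/
noncomputable def err (h : Hsh K M) (J j : ℕ) : ℝ := 2 * cc h J j + 2 * Real.pi * dd h J j

theorem err_nonneg (h : Hsh K M) (J j : ℕ) : 0 ≤ err h J j := by
  have := dd_nonneg h J j
  unfold err
  positivity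

theorem sum_err (hM : 0 < M) {J j : ℕ} (hJ : J < 2 ^ K) (hj : j < 2 ^ K) :
    ∑ h : Hsh K M, err h J j ≤ Fintype.card (Hsh K M) * (16 * K / M) := by
  unfold err
  rw [sum_add_distrib, ← mul_sum, ← mul_sum]
  have h1 := sum_cc hM hJ hj
  have h2 := sum_dd hM hJ hj
  have h3 := Real.pi_lt_d2
  have h4 := Real.pi_pos
  have hc : (0 : ℝ) ≤ Fintype.card (Hsh K M) * (K / M) := by positivity
  have e : (Fintype.card (Hsh K M) : ℝ) * (2 * K / M) =
      2 * (Fintype.card (Hsh K M) * (K / M)) := by ring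
  have e' : (Fintype.card (Hsh K M) : ℝ) * (16 * K / M) =
      16 * (Fintype.card (Hsh K M) * (K / M)) := by ring
  rw [e] at h2
  rw [e']
  have h5 : 2 * Real.pi * ∑ h : Hsh K M, dd h J j ≤
      2 * Real.pi * (2 * (Fintype.card (Hsh K M) * (K / M))) :=
    mul_le_mul_of_nonneg_left h2 (by positivity)
  nlinarith

/-- A good hash. -/
theorem exists_hash (hM : 0 < M) (v : ℕ → ℕ → ℝ) (hv : ∀ J j, 0 ≤ v J j) {W : ℝ}
    (hW : ∀ J < 2 ^ K, ∑ j ∈ range (2 ^ K), v J j ≤ W) :
    ∃ h : Hsh K M, ∑ J ∈ range (2 ^ K), ∑ j ∈ range (2 ^ K), v J j * err h J j ≤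
      2 ^ K * (W * (16 * K / M)) := by
  have : Nonempty (Hsh K M) := ⟨fun _ => ⟨0, hM⟩⟩
  have key : ∑ h : Hsh K M, ∑ J ∈ range (2 ^ K), ∑ j ∈ range (2 ^ K), v J j * err h J j ≤
      ∑ _h : Hsh K M, (2 ^ K * (W * (16 * K / M)) : ℝ) := by
    rw [sum_comm]
    calc ∑ J ∈ range (2 ^ K), ∑ h : Hsh K M, ∑ j ∈ range (2 ^ K), v J j * err h J j
        ≤ ∑ _J ∈ range (2 ^ K), (Fintype.card (Hsh K M) : ℝ) * (W * (16 * K / M)) := by
          refine sum_le_sum fun J hJ => ?_
          rw [sum_comm]
          calc ∑ j ∈ range (2 ^ K), ∑ h : Hsh K M, v J j * err h J j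
              ≤ ∑ j ∈ range (2 ^ K), v J j * (Fintype.card (Hsh K M) * (16 * K / M)) := by
                refine sum_le_sum fun j hj => ?_
                rw [← mul_sum]
                exact mul_le_mul_of_nonneg_left
                  (sum_err hM (mem_range.mp hJ) (mem_range.mp hj)) (hv _ _)
            _ = (∑ j ∈ range (2 ^ K), v J j) * (Fintype.card (Hsh K M) * (16 * K / M)) := by
                rw [sum_mul]
            _ ≤ W * (Fintype.card (Hsh K M) * (16 * K / M)) :=
                mul_le_mul_of_nonneg_right (hW J (mem_range.mp hJ)) (by positivity)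
            _ = _ := by ring
      _ = _ := by
          rw [sum_const, card_range, nsmul_eq_mul, sum_const, card_univ, nsmul_eq_mul]
          push_cast
          ring
  obtain ⟨h, _, hh⟩ := exists_le_of_sum_le univ_nonempty key
  exact ⟨h, hh⟩

end Vale.Agent.P091
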