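import Vale.Agent.P091.Stage

/-!
# The gliding hump
-/

open Finset Real MeasureTheory AddCircle Filter Asymptotics

namespace Vale.Agent.P091

/-- The data of the gliding hump. -/
structure Hump (T : ℝ) [hT : Fact (0 < T)] (φ : ℝ → ℝ) (c α B : ℕ → ℝ) (K R : ℕ → ℕ)
    (a : ℕ → ℤ → ℂ) (p : ℕ → AddCircle T → ℝ) : Prop where
  good : ∀ k, Good T ((1 / 2) ^ k) (c k) (K k) (R (k + 1)) (a k) (p k)
  pos : ∀ k, 0 < α k
  RK : ∀ k, R k ≤ 2 ^ K k
  mono : ∀ k, R k ≤ R (k + 1)
  small : ∀ k, α k * (2 * R k + 1) ≤ (1 / 2) ^ k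
  B0 : B 0 = 0
  Bs : ∀ k, B (k + 1) = B k + α k * (2 * R (k + 1) + 1)
  large : ∀ k, k + 2 + B k ≤ α k * (c k * K k)
  orl : ∀ k, ∫⁻ x, ENNReal.ofReal (psi φ (2 ^ (k + 1) * α k * p k x)) ∂haarAddCircle ≤
    ENNReal.ofReal ((1 / 2) ^ k)

theorem exists_hump (T : ℝ) [hT : Fact (0 < T)] {φ : ℝ → ℝ} (hφ : MonotoneOn φ (Set.Ici 0))
    (hφ0 : ∀ u, 0 ≤ u → 0 ≤ φ u) (hφo : φ =o[atTop] fun u => u * √(log u)) :
    ∃ (c α B : ℕ → ℝ) (K R : ℕ → ℕ) (a : ℕ → ℤ → ℂ) (p : ℕ → AddCircle T → ℝ),
      Hump T φ c α B K R a p := by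
  choose c α K R a p h using fun (k R₀ : ℕ) (B : ℝ) =>
    exists_stage T hφ hφ0 hφo k R₀ (le_max_right B 0)
  set st : ℕ → ℕ × ℝ := fun n => Nat.rec (0, 0) (fun k s =>
    (R k s.1 s.2, s.2 + α k s.1 s.2 * (2 * (R k s.1 s.2 : ℝ) + 1))) n with hst
  have hB : ∀ k, 0 ≤ (st k).2 := by
    intro k
    induction k with
    | zero => exact le_rfl
    | succ k ih =>
      have h1 : (st (k + 1)).2 = (st k).2 +
        α k (st k).1 (st k).2 * (2 * (R k (st k).1 (st k).2 : ℝ) + 1) := rfl
      have h2 := (h k (st k).1 (st k).2).2.1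
      rw [h1]
      positivity
  refine ⟨fun k => c k (st k).1 (st k).2, fun k => α k (st k).1 (st k).2, fun k => (st k).2,
    fun k => K k (st k).1 (st k).2, fun k => (st k).1, fun k => a k (st k).1 (st k).2,
    fun k => p k (st k).1 (st k).2, ?_⟩
  have hm : ∀ k, max (st k).2 0 = (st k).2 := fun k => max_eq_left (hB k)
  refine ⟨fun k => (h k (st k).1 (st k).2).1, fun k => (h k (st k).1 (st k).2).2.1,
    fun k => (h k (st k).1 (st k).2).2.2.1, fun k => (h k (st k).1 (st k).2).2.2.2.1,
    fun k => (h k (st k).1 (st k).2).2.2.2.2.1, rfl, fun k => rfl, fun k => ?_,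
    fun k => (h k (st k).1 (st k).2).2.2.2.2.2.2⟩
  have := (h k (st k).1 (st k).2).2.2.2.2.2.1
  rwa [hm] at this

variable {T : ℝ} [hT : Fact (0 < T)] {φ : ℝ → ℝ} {c α B : ℕ → ℝ} {K R : ℕ → ℕ}
    {a : ℕ → ℤ → ℂ} {p : ℕ → AddCircle T → ℝ}

theorem Hump.alpha_le (H : Hump T φ c α B K R a p) (k : ℕ) : α k ≤ (1 / 2) ^ k := by
  refine le_trans ?_ (H.small k)
  have h1 := H.pos k
  have h2 : (0 : ℝ) ≤ R k := by positivity
  nlinarith

theorem Hump.summable (H : Hump T φ c α B K R a p) : Summable α :=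
  Summable.of_nonneg_of_le (fun k => (H.pos k).le) H.alpha_le summable_geometric_two

/-- The sum, with extended values. -/
noncomputable def GG (α : ℕ → ℝ) (p : ℕ → AddCircle T → ℝ) (x : AddCircle T) : ENNReal :=
  ∑' i, ENNReal.ofReal (α i * p i x)

/-- The function. -/
noncomputable def ff (α : ℕ → ℝ) (p : ℕ → AddCircle T → ℝ) (x : AddCircle T) : ℝ :=
  (GG α p x).toReal

theorem Hump.measurable_term (H : Hump T φ c α B K R a p) (i : ℕ) :
    Measurable fun x => ENNReal.ofReal (α i * p i x) :=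
  ((continuous_const.mul (H.good i).continuous).measurable).ennreal_ofReal

theorem Hump.measurable_GG (H : Hump T φ c α B K R a p) : Measurable (GG α p) := by
  unfold GG
  exact Measurable.tsum H.measurable_term

theorem Hump.measurable_ff (H : Hump T φ c α B K R a p) : Measurable (ff α p) :=
  H.measurable_GG.ennreal_toReal

theorem Hump.integral_term (H : Hump T φ c α B K R a p) (i : ℕ) :
    ∫⁻ x, ENNReal.ofReal (α i * p i x) ∂haarAddCircle = ENNReal.ofReal (α i) := by
  rw [← ofReal_integral_eq_lintegral_ofReal ((H.good i).integrable.const_mul _),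
    integral_const_mul, (H.good i).integral, mul_one]
  exact Eventually.of_forall fun x => mul_nonneg (H.pos i).le ((H.good i).nonneg x)

theorem Hump.lintegral_GG (H : Hump T φ c α B K R a p) :
    ∫⁻ x, GG α p x ∂haarAddCircle ≠ ⊤ := by
  unfold GG
  rw [lintegral_tsum fun i => (H.measurable_term i).aemeasurable]
  simp_rw [H.integral_term]
  exact H.summable.tsum_ofReal_ne_top

theorem Hump.ae_ne_top (H : Hump T φ c α B K R a p) :
    ∀ᵐ x ∂(haarAddCircle : Measure (AddCircle T)), GG α p x ≠ ⊤ := by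
  filter_upwards [ae_lt_top H.measurable_GG H.lintegral_GG] with x hx
  exact hx.ne

theorem Hump.hasSum (H : Hump T φ c α B K R a p) {x : AddCircle T} (hx : GG α p x ≠ ⊤) :
    HasSum (fun i => α i * p i x) (ff α p x) := by
  have h1 := ENNReal.hasSum_toReal hx
  have h2 : ∀ i, (ENNReal.ofReal (α i * p i x)).toReal = α i * p i x := fun i =>
    ENNReal.toReal_ofReal (mul_nonneg (H.pos i).le ((H.good i).nonneg x))
  have h3 : ff α p x = ∑' i, (ENNReal.ofReal (α i * p i x)).toReal := by
    unfold ff GG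
    exact ENNReal.tsum_toReal_eq fun i => ENNReal.ofReal_ne_top
  rw [h3]
  simpa only [h2] using h1

theorem Hump.integrable_ff (H : Hump T φ c α B K R a p) :
    Integrable (ff α p) haarAddCircle :=
  integrable_toReal_of_lintegral_ne_top H.measurable_GG.aemeasurable H.lintegral_GG

/-- The Fourier coefficients of the sum. -/
theorem Hump.hasSum_coeff (H : Hump T φ c α B K R a p) (k : ℤ) :
    HasSum (fun i => (α i : ℂ) * a i k) (fourierCoeff (fun x => (ff α p x : ℂ)) k) := by
  have hint : ∀ i, Integrable (fun x : AddCircle T => fourier (-k) x • ((α i * p i x : ℝ) : ℂ))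
      haarAddCircle := fun i =>
    (((fourier (-k)).continuous.smul (Complex.continuous_ofReal.comp
      (continuous_const.mul (H.good i).continuous)))).integrable_of_hasCompactSupport
      (HasCompactSupport.of_compactSpace _)
  have hnorm : ∀ i, ∫ x : AddCircle T, ‖fourier (-k) x • ((α i * p i x : ℝ) : ℂ)‖
      ∂haarAddCircle = α i := by
    intro i
    have : ∀ x : AddCircle T, ‖fourier (-k) x • ((α i * p i x : ℝ) : ℂ)‖ = α i * p i x := by
      intro x
      have h1 : ‖fourier (-k) x‖ = 1 := Circle.norm_coe _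
      rw [norm_smul, h1, one_mul, Complex.norm_real, norm_eq_abs,
        abs_of_nonneg (mul_nonneg (H.pos i).le ((H.good i).nonneg x))]
    simp_rw [this]
    rw [integral_const_mul, (H.good i).integral, mul_one]
  have h1 := hasSum_integral_of_summable_integral_norm hint (by
    simp_rw [hnorm]
    exact H.summable)
  have h2 : ∀ i, ∫ x : AddCircle T, fourier (-k) x • ((α i * p i x : ℝ) : ℂ) ∂haarAddCircle =
      (α i : ℂ) * a i k := by
    intro i
    have := fourierCoeff.const_mul (fun x => (p i x : ℂ)) (α i : ℂ) k (T := T)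
    rw [(H.good i).coeff] at this
    rw [← this]
    unfold fourierCoeff
    refine integral_congr_ae (Eventually.of_forall fun x => ?_)
    simp
  have h3 : ∫ x : AddCircle T, ∑' i, fourier (-k) x • ((α i * p i x : ℝ) : ℂ) ∂haarAddCircle =
      fourierCoeff (fun x => (ff α p x : ℂ)) k := by
    unfold fourierCoeff
    refine integral_congr_ae ?_
    filter_upwards [H.ae_ne_top] with x hx
    have h4 := (H.hasSum hx)
    have h5 : HasSum (fun i => ((α i * p i x : ℝ) : ℂ)) ((ff α p x : ℝ) : ℂ) :=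
      Complex.hasSum_ofReal.mpr h4
    exact (h5.const_smul (fourier (-k) x)).tsum_eq
  rw [h3] at h1
  simpa only [h2] using h1

/-- The partial sums of the sum. -/
theorem Hump.hasSum_psum (H : Hump T φ c α B K R a p) (n : ℕ) (x : AddCircle T) :
    HasSum (fun i => (α i : ℂ) * psum (a i) n x)
      (∑ k ∈ Icc (-(n : ℤ)) n, fourierCoeff (fun x => (ff α p x : ℂ)) k • fourier k x) := by
  have h1 := hasSum_sum (f := fun k i => ((α i : ℂ) * a i k) • fourier k x)
    (s := Icc (-(n : ℤ)) n) fun k _ => (H.hasSum_coeff k).smul_const (fourier k x)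
  have h2 : ∀ i, ∑ k ∈ Icc (-(n : ℤ)) n, ((α i : ℂ) * a i k) • fourier k x =
      (α i : ℂ) * psum (a i) n x := by
    intro i
    unfold psum
    rw [mul_sum]
    refine sum_congr rfl fun k _ => ?_
    rw [smul_eq_mul, mul_assoc]
  simpa only [h2] using h1

theorem Hump.R_mono (H : Hump T φ c α B K R a p) : Monotone R :=
  monotone_nat_of_le_succ H.mono

theorem Hump.B_eq (H : Hump T φ c α B K R a p) (k : ℕ) :
    B k = ∑ i ∈ range k, α i * (2 * R (i + 1) + 1) := by
  induction k with
  | zero => rw [H.B0, range_zero, sum_empty]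
  | succ k ih => rw [H.Bs, ih, sum_range_succ]

/-- The lower bound. -/
theorem Hump.lower (H : Hump T φ c α B K R a p) {k n : ℕ} {x : AddCircle T}
    (hn : 2 ^ K k ≤ n) (hn' : n ≤ R (k + 1)) (hx : c k * K k ≤ ‖psum (a k) n x‖) :
    (k : ℝ) + 1 ≤
      ‖∑ j ∈ Icc (-(n : ℤ)) n, fourierCoeff (fun x => (ff α p x : ℂ)) j • fourier j x‖ := by
  set S := ∑ j ∈ Icc (-(n : ℤ)) n, fourierCoeff (fun x => (ff α p x : ℂ)) j • fourier j x
    with hS
  have h1 := (H.hasSum_psum n x).update k 0
  have h2 : HasSum (fun i => if i < k then α i * (2 * (R (i + 1) : ℝ) + 1) else 0) (B k) := by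
    rw [H.B_eq k]
    have h3 : ∑ i ∈ range k, α i * (2 * (R (i + 1) : ℝ) + 1) =
        ∑ i ∈ range k, if i < k then α i * (2 * (R (i + 1) : ℝ) + 1) else 0 :=
      sum_congr rfl fun i hi => (if_pos (mem_range.mp hi)).symm
    rw [h3]
    exact hasSum_sum_of_ne_finset_zero fun i hi => if_neg (by rwa [mem_range] at hi)
  have h4 : HasSum (Function.update (fun i : ℕ => (1 / 2 : ℝ) ^ i) 0 0) 1 := by
    have := hasSum_geometric_two.update 0 0
    norm_num at this
    convert! this using 2
  have h5 : ∀ i, ‖Function.update (fun i => (α i : ℂ) * psum (a i) n x) k 0 i‖ ≤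
      (if i < k then α i * (2 * (R (i + 1) : ℝ) + 1) else 0) +
        Function.update (fun i : ℕ => (1 / 2 : ℝ) ^ i) 0 0 i := by
    intro i
    have hα := H.pos i
    rcases lt_trichotomy i k with hik | hik | hik
    · rw [Function.update_of_ne hik.ne, if_pos hik]
      have h6 : 0 ≤ Function.update (fun i : ℕ => (1 / 2 : ℝ) ^ i) 0 0 i := by
        rcases Nat.eq_zero_or_pos i with h0 | h0
        · rw [h0, Function.update_self]
        · rw [Function.update_of_ne h0.ne']
          positivity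
      have h7 : ‖(α i : ℂ) * psum (a i) n x‖ ≤ α i * (2 * (R (i + 1) : ℝ) + 1) := by
        rw [norm_mul, Complex.norm_real, norm_eq_abs, abs_of_pos hα]
        refine mul_le_mul_of_nonneg_left ?_ hα.le
        have h8 : R (i + 1) ≤ n := (H.R_mono (by omega : i + 1 ≤ k)).trans ((H.RK k).trans hn)
        rw [psum_of_le (H.good i).supp h8]
        exact norm_psum_le (H.good i).norm _ x
      linarith
    · rw [hik, Function.update_self, norm_zero, if_neg (lt_irrefl _), zero_add]
      rcases Nat.eq_zero_or_pos k with h0 | h0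
      · rw [h0, Function.update_self]
      · rw [Function.update_of_ne h0.ne']
        positivity
    · rw [Function.update_of_ne hik.ne', if_neg (by omega), zero_add,
        Function.update_of_ne (by omega)]
      rw [norm_mul, Complex.norm_real, norm_eq_abs, abs_of_pos hα]
      have h8 : n ≤ R i := hn'.trans (H.R_mono hik)
      have h9 : (n : ℝ) ≤ R i := by exact_mod_cast h8
      refine le_trans ?_ (H.small i)
      refine mul_le_mul_of_nonneg_left ?_ hα.le
      exact (norm_psum_le (H.good i).norm n x).trans (by linarith)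
  have h6 := tsum_of_norm_bounded (h2.add h4) h5
  rw [h1.tsum_eq] at h6
  have h7 : ‖(α k : ℂ) * psum (a k) n x‖ = α k * ‖psum (a k) n x‖ := by
    rw [norm_mul, Complex.norm_real, norm_eq_abs, abs_of_pos (H.pos k)]
  have h8 : α k * (c k * K k) ≤ α k * ‖psum (a k) n x‖ :=
    mul_le_mul_of_nonneg_left hx (H.pos k).le
  have h9 := H.large k
  have h10 : ‖(α k : ℂ) * psum (a k) n x‖ ≤
      ‖S‖ + ‖0 - (α k : ℂ) * psum (a k) n x + S‖ := by
    have e : (α k : ℂ) * psum (a k) n x = S - (0 - (α k : ℂ) * psum (a k) n x + S) := by ring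
    calc ‖(α k : ℂ) * psum (a k) n x‖ = ‖S - (0 - (α k : ℂ) * psum (a k) n x + S)‖ := by
          rw [← e]
      _ ≤ _ := norm_sub_le _ _
  linarith

/-- The partial sums are unbounded almost everywhere. -/
theorem Hump.ae_unbounded (H : Hump T φ c α B K R a p) :
    ∀ᵐ x ∂(haarAddCircle : Measure (AddCircle T)), ∀ A : ℝ, ∃ N : ℕ, A <
      ‖∑ j ∈ Icc (-(N : ℤ)) N, fourierCoeff (fun x => (ff α p x : ℂ)) j • fourier j x‖ := by
  have h1 : ∑' k, haarAddCircle {x : AddCircle T | ∀ n : ℕ, 2 ^ K k ≤ n → n ≤ R (k + 1) →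
      ‖psum (a k) n x‖ < c k * K k} ≠ ⊤ := by
    refine ne_top_of_le_ne_top ?_ (ENNReal.tsum_le_tsum fun k => (H.good k).bad)
    exact summable_geometric_two.tsum_ofReal_ne_top
  filter_upwards [ae_eventually_notMem h1] with x hx
  intro A
  obtain ⟨k₀, hk₀⟩ := eventually_atTop.mp hx
  obtain ⟨m, hm⟩ := exists_nat_gt A
  have h2 := hk₀ (max k₀ m) (le_max_left _ _)
  simp only [not_forall, not_lt] at h2
  obtain ⟨n, hn, hn', hx'⟩ := h2
  refine ⟨n, lt_of_lt_of_le ?_ (H.lower hn hn' hx')⟩
  have : (m : ℝ) ≤ ((max k₀ m : ℕ) : ℝ) := by exact_mod_cast le_max_right _ _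
  linarith

/-- The Orlicz bound. -/
theorem Hump.integrable_phi (H : Hump T φ c α B K R a p) (hφ : MonotoneOn φ (Set.Ici 0))
    (hφ0 : ∀ u, 0 ≤ u → 0 ≤ φ u) : Integrable (fun x => φ (ff α p x)) haarAddCircle := by
  have hmono : Monotone fun u : ℝ => φ (max u 0) := fun u v huv =>
    hφ (Set.mem_Ici.mpr (le_max_right _ _)) (Set.mem_Ici.mpr (le_max_right _ _))
      (max_le_max huv le_rfl)
  have hff0 : ∀ x, 0 ≤ ff α p x := fun x => ENNReal.toReal_nonneg
  have hmeas : Measurable fun x => φ (ff α p x) := by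
    have h1 : (fun x => φ (ff α p x)) = (fun u : ℝ => φ (max u 0)) ∘ ff α p := by
      ext x
      simp only [Function.comp_apply, max_eq_left (hff0 x)]
    rw [h1]
    exact hmono.measurable.comp H.measurable_ff
  have hw0 : ∀ i x, 0 ≤ 2 ^ (i + 1) * α i * p i x := fun i x =>
    mul_nonneg (mul_nonneg (by positivity) (H.pos i).le) ((H.good i).nonneg x)
  have hpsim : ∀ i, Measurable fun x =>
      ENNReal.ofReal (psi φ (2 ^ (i + 1) * α i * p i x)) := by
    intro i
    have hc : Measurable fun x => 2 ^ (i + 1) * α i * p i x :=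
      (continuous_const.mul (H.good i).continuous).measurable
    have h1 : (fun x => psi φ (2 ^ (i + 1) * α i * p i x)) = fun x =>
        if 1 < 2 ^ (i + 1) * α i * p i x then
          (fun u : ℝ => φ (max u 0)) (2 ^ (i + 1) * α i * p i x) else 0 := by
      ext x
      unfold psi
      simp only [max_eq_left (hw0 i x)]
    have h2 : Measurable fun x => psi φ (2 ^ (i + 1) * α i * p i x) := by
      rw [h1]
      exact Measurable.ite (measurableSet_lt measurable_const hc)
        (hmono.measurable.comp hc) measurable_const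
    exact h2.ennreal_ofReal
  have hpt : ∀ x, GG α p x ≠ ⊤ → ENNReal.ofReal (φ (ff α p x)) ≤ ENNReal.ofReal (φ 1) +
      ∑' i, ENNReal.ofReal (psi φ (2 ^ (i + 1) * α i * p i x)) := by
    intro x hx
    rcases le_or_gt (ff α p x) 1 with h1 | h1
    · refine le_trans (ENNReal.ofReal_le_ofReal ?_) le_self_add
      exact hφ (Set.mem_Ici.mpr (hff0 x)) (Set.mem_Ici.mpr zero_le_one) h1
    · have h2 : ∃ i, ff α p x ≤ 2 ^ (i + 1) * α i * p i x := by
        by_contra hcon
        push Not at hcon
        have h3 : HasSum (fun i : ℕ => ff α p x * (1 / 2) * (1 / 2) ^ i)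
            (ff α p x * (1 / 2) * 2) := hasSum_geometric_two.mul_left _
        have h4 : ∀ i, α i * p i x < ff α p x * (1 / 2) * (1 / 2) ^ i := by
          intro i
          have h5 := hcon i
          have h6 : (0 : ℝ) < (1 / 2) ^ (i + 1) := by positivity
          have h7 := mul_lt_mul_of_pos_right h5 h6
          have h8 : (2 : ℝ) ^ (i + 1) * (1 / 2) ^ (i + 1) = 1 := by
            rw [← mul_pow]
            norm_num
          have h9 : 2 ^ (i + 1) * α i * p i x * (1 / 2) ^ (i + 1) = α i * p i x := by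
            linear_combination (α i * p i x) * h8
          rw [h9] at h7
          refine h7.trans_eq ?_
          ring
        have h5 := hasSum_lt (fun i => (h4 i).le) (h4 0) (H.hasSum hx) h3
        linarith
      obtain ⟨i, hi⟩ := h2
      have h3 : φ (ff α p x) ≤ psi φ (2 ^ (i + 1) * α i * p i x) := by
        unfold psi
        rw [if_pos (h1.trans_le hi)]
        exact hφ (Set.mem_Ici.mpr (hff0 x)) (Set.mem_Ici.mpr (hw0 i x)) hi
      refine (ENNReal.ofReal_le_ofReal h3).trans ?_
      exact (ENNReal.le_tsum (f := fun i =>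
        ENNReal.ofReal (psi φ (2 ^ (i + 1) * α i * p i x))) i).trans le_add_self
  refine ⟨hmeas.aestronglyMeasurable, ?_⟩
  rw [hasFiniteIntegral_iff_ofReal (Eventually.of_forall fun x => hφ0 _ (hff0 x))]
  calc ∫⁻ x, ENNReal.ofReal (φ (ff α p x)) ∂haarAddCircle
      ≤ ∫⁻ x, (ENNReal.ofReal (φ 1) +
          ∑' i, ENNReal.ofReal (psi φ (2 ^ (i + 1) * α i * p i x))) ∂haarAddCircle :=
        lintegral_mono_ae (H.ae_ne_top.mono hpt)
    _ = ENNReal.ofReal (φ 1) + ∑' i, ∫⁻ x,
          ENNReal.ofReal (psi φ (2 ^ (i + 1) * α i * p i x)) ∂haarAddCircle := by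
        rw [lintegral_add_left measurable_const, lintegral_const, measure_univ, mul_one,
          lintegral_tsum fun i => (hpsim i).aemeasurable]
    _ < ⊤ := by
        refine ENNReal.add_lt_top.mpr ⟨ENNReal.ofReal_lt_top, ?_⟩
        exact lt_of_le_of_lt (ENNReal.tsum_le_tsum H.orl)
          (summable_geometric_two.tsum_ofReal_ne_top).lt_top

end Vale.Agent.P091
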