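import Vale.Agent.P091.Hash

/-!
# Large partial sums of the atomic measures
-/

open Finset Real

namespace Vale.Agent.P091

/-- The Dirichlet kernel. -/
noncomputable def Dn (n : ℕ) (t : ℝ) : ℝ :=
  1 + 2 * ∑ k ∈ range n, cos (2 * π * ((k + 1 : ℕ) : ℝ) * t)

theorem Dn_mul_sin (n : ℕ) (t : ℝ) : Dn n t * sin (π * t) = sin ((2 * n + 1) * π * t) := by
  induction n with
  | zero => simp [Dn]
  | succ n ih =>
    unfold Dn at ih ⊢
    rw [sum_range_succ, mul_add, ← add_assoc, add_mul, ih]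
    have h1 : (2 * ((n + 1 : ℕ) : ℝ) + 1) * π * t = 2 * π * ((n + 1 : ℕ) : ℝ) * t + π * t := by
      ring
    have h2 : (2 * (n : ℝ) + 1) * π * t = 2 * π * ((n + 1 : ℕ) : ℝ) * t - π * t := by
      push_cast
      ring
    rw [h1, h2, sin_add, sin_sub]
    ring

theorem Dn_eq {n : ℕ} {t : ℝ} (h : sin (π * t) ≠ 0) :
    Dn n t = sin (2 * π * n * t) * (cos (π * t) / sin (π * t)) + cos (2 * π * n * t) := by
  have h1 := Dn_mul_sin n t
  have h2 : (2 * (n : ℝ) + 1) * π * t = 2 * π * n * t + π * t := by ring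
  rw [h2, sin_add] at h1
  field_simp
  linear_combination h1

variable {K M : ℕ}

/-- The atoms. -/
noncomputable def atom (h : Hsh K M) (j : ℕ) : ℝ := (j + yy h j) / 2 ^ K

/-- The phase at an atom. -/
theorem sin_phase (h : Hsh K M) {J j : ℕ} (hJ : J < 2 ^ K) (hj : j < 2 ^ K) (r : ℕ) (θ : ℝ)
    {n : ℕ} (hn : n = 2 ^ K * (qq h J + 2 ^ (K * M) * r)) :
    |sin (2 * π * n * (θ - atom h j)) - (if J < j then -1 else 1) * sin (2 * π * n * θ)| ≤
      err h J j := by
  obtain ⟨z, hz⟩ := phase h hJ hj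
  obtain ⟨w, hw⟩ := exists_nat_yy h j
  set s : ℕ := if J < j then 1 else 0 with hs
  have e1 : (n : ℝ) * atom h j = ((qq h J * j + 2 ^ (K * M) * r * j + r * w + z : ℕ) : ℝ) +
      ((s + cc h J j : ℕ) : ℝ) / 2 + dd h J j := by
    have : (n : ℝ) * atom h j = (qq h J : ℝ) * yy h j + (qq h J : ℝ) * j +
        2 ^ (K * M) * r * j + r * (2 ^ (K * M) * yy h j) := by
      rw [hn, atom]
      push_cast
      field_simp
      ring
    rw [this, hz, hw]
    push_cast
    ring
  have e2 : 2 * π * n * (θ - atom h j) = (2 * π * n * θ - 2 * π * dd h J j) -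
      ((2 * (qq h J * j + 2 ^ (K * M) * r * j + r * w + z) + (s + cc h J j) : ℕ) : ℝ) * π := by
    have : 2 * π * n * (θ - atom h j) = 2 * π * n * θ - 2 * π * (n * atom h j) := by ring
    rw [this, e1]
    push_cast
    ring
  rw [e2]
  generalize qq h J * j + 2 ^ (K * M) * r * j + r * w + z = Z
  rw [sin_sub_nat_mul_pi, pow_add, pow_mul, pow_add]
  have e3 : (-1 : ℝ) ^ s = if J < j then -1 else 1 := by
    rw [hs]
    split_ifs <;> simp
  rw [e3]
  have e4 : |(if J < j then -1 else 1 : ℝ)| = 1 := by split_ifs <;> simp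
  have e5 : ((-1 : ℝ) ^ 2) ^ Z = 1 := by simp
  rw [e5]
  have e6 : 1 * ((if J < j then -1 else 1) * (-1 : ℝ) ^ cc h J j) *
      sin (2 * π * n * θ - 2 * π * dd h J j) - (if J < j then -1 else 1) * sin (2 * π * n * θ) =
      (if J < j then -1 else 1) * ((-1 : ℝ) ^ cc h J j *
        sin (2 * π * n * θ - 2 * π * dd h J j) - sin (2 * π * n * θ)) := by ring
  rw [e6, abs_mul, e4, one_mul]
  unfold err
  have hd := dd_nonneg h J j
  have hπ := pi_pos
  rcases Nat.eq_zero_or_pos (cc h J j) with h0 | h0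
  · rw [h0]
    have := lipschitzWith_sin.dist_le_mul (2 * π * n * θ - 2 * π * dd h J j) (2 * π * n * θ)
    rw [dist_eq, dist_eq, NNReal.coe_one, one_mul] at this
    have e7 : |2 * π * n * θ - 2 * π * dd h J j - 2 * π * n * θ| = 2 * π * dd h J j := by
      rw [show 2 * π * n * θ - 2 * π * dd h J j - 2 * π * n * θ = -(2 * π * dd h J j) by ring,
        abs_neg, abs_of_nonneg (by positivity)]
    rw [e7] at this
    simpa using this
  · have h1 : (1 : ℝ) ≤ cc h J j := by exact_mod_cast h0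
    have h2 : |(-1 : ℝ) ^ cc h J j * sin (2 * π * n * θ - 2 * π * dd h J j) -
        sin (2 * π * n * θ)| ≤ 1 + 1 := by
      refine (abs_sub _ _).trans (add_le_add ?_ (abs_sin_le_one _))
      rw [abs_mul, abs_pow, abs_neg, abs_one, one_pow, one_mul]
      exact abs_sin_le_one _
    have h3 : 0 ≤ 2 * π * dd h J j := by positivity
    linarith

/-- Jordan's inequality. -/
theorem sin_lower {ε u : ℝ} (hε : 0 < ε) (hu : 0 < u) (hu1 : u ≤ 1 - ε) :
    0 < sin (π * u) ∧ 1 / sin (π * u) ≤ 1 / (2 * u) + 1 / (2 * ε) := by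
  have hπ := pi_pos
  have h0 : 0 < sin (π * u) := sin_pos_of_pos_of_lt_pi (by positivity) (by nlinarith)
  refine ⟨h0, ?_⟩
  rcases le_total u (1 / 2) with h | h
  · have h1 : 2 / π * (π * u) ≤ sin (π * u) := mul_le_sin (by positivity) (by nlinarith)
    have h2 : 2 / π * (π * u) = 2 * u := by field_simp
    rw [h2] at h1
    have h3 := one_div_le_one_div_of_le (by positivity) h1
    have : 0 ≤ 1 / (2 * ε) := by positivity
    linarith
  · have h1 : 2 / π * (π * (1 - u)) ≤ sin (π * (1 - u)) :=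
      mul_le_sin (by nlinarith) (by nlinarith)
    have h2 : 2 / π * (π * (1 - u)) = 2 * (1 - u) := by field_simp
    have h3 : sin (π * (1 - u)) = sin (π * u) := by
      rw [mul_sub, mul_one, sin_pi_sub]
    rw [h2, h3] at h1
    have h4 : 2 * ε ≤ sin (π * u) := by linarith
    have h5 := one_div_le_one_div_of_le (by positivity) h4
    have : 0 ≤ 1 / (2 * u) := by positivity
    linarith

theorem cot_abs_le {ε t : ℝ} (hε : 0 < ε) (ht : t ≠ 0) (ht1 : |t| ≤ 1 - ε) :
    sin (π * t) ≠ 0 ∧ |cos (π * t) / sin (π * t)| ≤ 1 / (2 * |t|) + 1 / (2 * ε) := by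
  obtain ⟨h1, h2⟩ := sin_lower hε (abs_pos.mpr ht) ht1
  have h3 : |sin (π * t)| = sin (π * |t|) := by
    rcases abs_cases t with ⟨h, _⟩ | ⟨h, _⟩
    · rw [h] at h1 ⊢
      exact abs_of_pos h1
    · rw [h] at h1 ⊢
      rw [mul_neg, sin_neg] at h1 ⊢
      exact abs_of_neg (by linarith)
  refine ⟨fun h => by rw [h, abs_zero] at h3; linarith, ?_⟩
  rw [abs_div, h3]
  refine le_trans ?_ h2
  exact div_le_div_of_nonneg_right (abs_cos_le_one _) h1.le

theorem cot_ge {ε u : ℝ} (hε : 0 < ε) (hu : 0 < u) (hu1 : u ≤ 1 - ε) :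
    -(1 / (2 * ε)) ≤ cos (π * u) / sin (π * u) := by
  have hπ := pi_pos
  obtain ⟨h1, h2⟩ := sin_lower hε hu hu1
  rcases le_total u (1 / 2) with h | h
  · have h3 : 0 ≤ cos (π * u) := cos_nonneg_of_neg_pi_div_two_le_of_le (by nlinarith)
      (by nlinarith)
    have : 0 ≤ cos (π * u) / sin (π * u) := by positivity
    have : 0 ≤ 1 / (2 * ε) := by positivity
    linarith
  · have h1' : 2 / π * (π * (1 - u)) ≤ sin (π * (1 - u)) :=
      mul_le_sin (by nlinarith) (by nlinarith)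
    have h2' : 2 / π * (π * (1 - u)) = 2 * (1 - u) := by field_simp
    have h3 : sin (π * (1 - u)) = sin (π * u) := by
      rw [mul_sub, mul_one, sin_pi_sub]
    rw [h2', h3] at h1'
    have h4 : 2 * ε ≤ sin (π * u) := by linarith
    have h5 := one_div_le_one_div_of_le (by positivity) h4
    have h6 : -1 / sin (π * u) ≤ cos (π * u) / sin (π * u) :=
      div_le_div_of_nonneg_right (neg_one_le_cos _) h1.le
    rw [neg_div] at h6
    linarith

theorem cot_ge_small {u : ℝ} (hu : 0 < u) (hu1 : u ≤ 1 / 4) :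
    1 / (8 * u) ≤ cos (π * u) / sin (π * u) := by
  have hπ := pi_pos
  have hπ4 := pi_le_four
  have h1 : 0 < sin (π * u) := sin_pos_of_pos_of_lt_pi (by positivity) (by nlinarith)
  have h2 : 1 / 2 ≤ cos (π * u) := by
    rw [← cos_pi_div_three]
    exact cos_le_cos_of_nonneg_of_le_pi (by positivity) (by linarith) (by nlinarith)
  have h3 : sin (π * u) ≤ 4 * u := (sin_le (by positivity)).trans (by nlinarith)
  rw [div_le_div_iff₀ (by positivity) h1]
  nlinarith

theorem harm_lower (p : ℕ) :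
    (p : ℝ) / 2 ≤ ∑ i ∈ range (2 ^ p - 1), 1 / ((i : ℝ) + 2) := by
  induction p with
  | zero => simp
  | succ p ih =>
    have h0 : 0 < 2 ^ p := by positivity
    have e : 2 ^ (p + 1) - 1 = (2 ^ p - 1) + 2 ^ p := by rw [pow_succ]; omega
    rw [e, sum_range_add]
    have h1 : (1 : ℝ) / 2 ≤ ∑ x ∈ range (2 ^ p), 1 / (((2 ^ p - 1 + x : ℕ) : ℝ) + 2) := by
      calc (1 : ℝ) / 2 = ∑ _x ∈ range (2 ^ p), (1 : ℝ) / (2 ^ p * 2) := by
            rw [sum_const, card_range, nsmul_eq_mul]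
            push_cast
            field_simp
        _ ≤ _ := by
            refine sum_le_sum fun x hx => ?_
            rw [mem_range] at hx
            have : ((2 ^ p - 1 + x : ℕ) : ℝ) + 2 ≤ 2 ^ p * 2 := by
              have : 2 ^ p - 1 + x + 2 ≤ 2 ^ p * 2 := by omega
              exact_mod_cast this
            exact one_div_le_one_div_of_le (by positivity) this
    push_cast at h1 ⊢
    linarith

theorem harm_upper (p : ℕ) :
    ∑ i ∈ range (2 ^ p), 1 / ((i : ℝ) + 1) ≤ p + 1 := by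
  induction p with
  | zero => simp
  | succ p ih =>
    rw [pow_succ, mul_two, sum_range_add]
    have h1 : ∑ x ∈ range (2 ^ p), 1 / (((2 ^ p + x : ℕ) : ℝ) + 1) ≤ 1 := by
      calc ∑ x ∈ range (2 ^ p), 1 / (((2 ^ p + x : ℕ) : ℝ) + 1)
          ≤ ∑ _x ∈ range (2 ^ p), (1 : ℝ) / 2 ^ p := by
            refine sum_le_sum fun x _ => ?_
            refine one_div_le_one_div_of_le (by positivity) ?_
            push_cast
            have : (0 : ℝ) ≤ x := by positivity
            linarith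
        _ = 1 := by
            rw [sum_const, card_range, nsmul_eq_mul]
            push_cast
            field_simp
    push_cast at h1 ⊢
    linarith

/-- The weights. -/
noncomputable def wt (ε : ℝ) (K J j : ℕ) : ℝ :=
  1 / (2 * ε * 2 ^ K) + 1 / (ε * (((j - J) + (J - j) : ℕ) + 1))

theorem wt_nonneg {ε : ℝ} (hε : 0 < ε) (K J j : ℕ) : 0 ≤ wt ε K J j := by
  unfold wt
  positivity

theorem sum_wt {ε : ℝ} (hε : 0 < ε) {K J : ℕ} (hJ : J < 2 ^ K) :
    ∑ j ∈ range (2 ^ K), wt ε K J j ≤ 3 / ε * (K + 1) := by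
  unfold wt
  rw [sum_add_distrib, sum_const, card_range, nsmul_eq_mul]
  have h1 : ∑ j ∈ range (2 ^ K), 1 / (ε * ((((j - J) + (J - j) : ℕ) : ℝ) + 1)) ≤
      1 / ε * (2 * (K + 1)) := by
    have e : ∑ j ∈ range (2 ^ K), 1 / (ε * ((((j - J) + (J - j) : ℕ) : ℝ) + 1)) =
        1 / ε * ∑ j ∈ range (2 ^ K), 1 / ((((j - J) + (J - j) : ℕ) : ℝ) + 1) := by
      rw [mul_sum]
      refine sum_congr rfl fun j _ => ?_
      field_simp
    rw [e]
    refine mul_le_mul_of_nonneg_left ?_ (by positivity)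
    obtain ⟨m', hm'⟩ := Nat.exists_eq_add_of_le hJ.le
    have hH := harm_upper K
    have a1 : ∑ j ∈ range J, 1 / ((((j - J) + (J - j) : ℕ) : ℝ) + 1) ≤
        ∑ i ∈ range (2 ^ K), 1 / ((i : ℝ) + 1) := by
      have e1 : ∑ j ∈ range J, 1 / ((((j - J) + (J - j) : ℕ) : ℝ) + 1) =
          ∑ j ∈ range J, 1 / (((J - 1 - j : ℕ) : ℝ) + 2) := by
        refine sum_congr rfl fun j hj => ?_
        rw [mem_range] at hj
        have : (j - J) + (J - j) + 1 = J - 1 - j + 2 := by omega
        have : ((((j - J) + (J - j) : ℕ) : ℝ) + 1) = (((J - 1 - j : ℕ) : ℝ) + 2) := by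
          exact_mod_cast this
        rw [this]
      rw [e1, sum_range_reflect (fun i => 1 / ((i : ℝ) + 2)) J]
      calc ∑ j ∈ range J, 1 / ((j : ℝ) + 2) ≤ ∑ j ∈ range J, 1 / ((j : ℝ) + 1) := by
            refine sum_le_sum fun j _ => ?_
            exact one_div_le_one_div_of_le (by positivity) (by linarith)
        _ ≤ _ := sum_le_sum_of_subset_of_nonneg (range_mono hJ.le) fun i _ _ => by positivity
    have a2 : ∑ x ∈ range m', 1 / ((((J + x - J) + (J - (J + x)) : ℕ) : ℝ) + 1) ≤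
        ∑ i ∈ range (2 ^ K), 1 / ((i : ℝ) + 1) := by
      have e1 : ∑ x ∈ range m', 1 / ((((J + x - J) + (J - (J + x)) : ℕ) : ℝ) + 1) =
          ∑ x ∈ range m', 1 / ((x : ℝ) + 1) := by
        refine sum_congr rfl fun x _ => ?_
        have : (J + x - J) + (J - (J + x)) = x := by omega
        rw [this]
      rw [e1]
      exact sum_le_sum_of_subset_of_nonneg (range_mono (by omega)) fun i _ _ => by positivity
    rw [hm', sum_range_add]
    linarith
  have h2 : ((2 ^ K : ℕ) : ℝ) * (1 / (2 * ε * 2 ^ K)) = 1 / ε * (1 / 2) := by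
    push_cast
    field_simp
  rw [h2]
  have h3 : 3 / ε * ((K : ℝ) + 1) = 1 / ε * (3 * (K + 1)) := by ring
  rw [h3]
  have h4 : 1 / ε * (1 / 2) + 1 / ε * (2 * (K + 1)) ≤ 1 / ε * (3 * ((K : ℝ) + 1)) := by
    rw [← mul_add]
    refine mul_le_mul_of_nonneg_left ?_ (by positivity)
    have : (0 : ℝ) ≤ K := by positivity
    linarith
  linarith

end Vale.Agent.P091
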