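import Vale.Agent.P091.Kernel

/-!
# Large partial sums of the atomic measures, II
-/

open Finset Real

namespace Vale.Agent.P091

variable {K M : ℕ}

/-- The partial sums of the atomic measure. -/
noncomputable def Sm (h : Hsh K M) (n : ℕ) (θ : ℝ) : ℝ :=
  1 / 2 ^ K * ∑ j ∈ range (2 ^ K), Dn n (θ - atom h j)

theorem le_atom (h : Hsh K M) (j : ℕ) : (j : ℝ) / 2 ^ K ≤ atom h j := by
  unfold atom
  have := yy_nonneg h j
  exact div_le_div_of_nonneg_right (by linarith) (by positivity)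

theorem atom_le (h : Hsh K M) (hM : 0 < M) (j : ℕ) : atom h j ≤ ((j : ℝ) + 1) / 2 ^ K := by
  unfold atom
  have := yy_le h hM j
  exact div_le_div_of_nonneg_right (by linarith) (by positivity)

/-- The data of a good point. -/
structure Pt (h : Hsh K M) (ε θ : ℝ) (J : ℕ) : Prop where
  hM : 0 < M
  hε : 0 < ε
  hε1 : ε ≤ 1 / 2
  lo : ε ≤ θ
  hi : θ ≤ 1 - ε
  hJ : J < 2 ^ K
  h1 : (J : ℝ) / 2 ^ K ≤ θ
  h2 : θ < ((J : ℝ) + 1) / 2 ^ K
  h3 : ∀ j < 2 ^ K, ε / 2 ^ K ≤ |θ - atom h j|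

theorem Pt.abs_le {h : Hsh K M} {ε θ : ℝ} {J : ℕ} (P : Pt h ε θ J) {j : ℕ} (hj : j < 2 ^ K) :
    |θ - atom h j| ≤ 1 - ε := by
  have a1 := le_atom h j
  have a2 := atom_le h P.hM j
  have a3 : (0 : ℝ) ≤ (j : ℝ) / 2 ^ K := by positivity
  have a4 : ((j : ℝ) + 1) / 2 ^ K ≤ 1 := by
    rw [div_le_one (by positivity)]
    exact_mod_cast hj
  have := P.lo
  have := P.hi
  rw [_root_.abs_le]
  constructor <;> linarith

theorem Pt.ne {h : Hsh K M} {ε θ : ℝ} {J : ℕ} (P : Pt h ε θ J) {j : ℕ} (hj : j < 2 ^ K) :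
    θ - atom h j ≠ 0 := by
  have h0 : 0 < ε / 2 ^ K := div_pos P.hε (by positivity)
  exact abs_pos.mp (h0.trans_le (P.h3 j hj))

/-- Left atoms. -/
theorem Pt.left {h : Hsh K M} {ε θ : ℝ} {J : ℕ} (P : Pt h ε θ J) {j e : ℕ} (hj : J = j + e) :
    ((e : ℝ) - 1) / 2 ^ K ≤ θ - atom h j ∧ θ - atom h j ≤ ((e : ℝ) + 1) / 2 ^ K := by
  have a1 := le_atom h j
  have a2 := atom_le h P.hM j
  have a3 := P.h1
  have a4 := P.h2
  rw [hj] at a3 a4
  push_cast at a3 a4
  constructor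
  · have : ((e : ℝ) - 1) / 2 ^ K = ((j : ℝ) + e) / 2 ^ K - ((j : ℝ) + 1) / 2 ^ K := by ring
    linarith
  · have : ((e : ℝ) + 1) / 2 ^ K = ((j : ℝ) + e + 1) / 2 ^ K - (j : ℝ) / 2 ^ K := by ring
    linarith

/-- Right atoms. -/
theorem Pt.right {h : Hsh K M} {ε θ : ℝ} {J : ℕ} (P : Pt h ε θ J) {j e : ℕ} (hj : j = J + e) :
    ((e : ℝ) - 1) / 2 ^ K ≤ atom h j - θ ∧ atom h j - θ ≤ ((e : ℝ) + 1) / 2 ^ K := by
  have a1 := le_atom h j
  have a2 := atom_le h P.hM j
  have a3 := P.h1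
  have a4 := P.h2
  have hj' : (j : ℝ) = J + e := by exact_mod_cast hj
  rw [hj'] at a1 a2
  constructor
  · have : ((e : ℝ) - 1) / 2 ^ K = ((J : ℝ) + e) / 2 ^ K - ((J : ℝ) + 1) / 2 ^ K := by ring
    linarith
  · have : ((e : ℝ) + 1) / 2 ^ K = ((J : ℝ) + e + 1) / 2 ^ K - (J : ℝ) / 2 ^ K := by ring
    linarith

theorem Pt.wt_le {h : Hsh K M} {ε θ : ℝ} {J : ℕ} (P : Pt h ε θ J) {j : ℕ} (hj : j < 2 ^ K) :
    1 / 2 ^ K * |cos (π * (θ - atom h j)) / sin (π * (θ - atom h j))| ≤ wt ε K J j := by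
  have hε := P.hε
  obtain ⟨_, h1⟩ := cot_abs_le P.hε (P.ne hj) (P.abs_le hj)
  have h3 := P.h3 j hj
  have hm : (0 : ℝ) < 2 ^ K := by positivity
  rw [div_le_iff₀ hm] at h3
  have ht : 0 < |θ - atom h j| := abs_pos.mpr (P.ne hj)
  -- the key inequality
  have key : ε * ((((j - J) + (J - j) : ℕ) : ℝ) + 1) ≤ 2 * (2 ^ K * |θ - atom h j|) := by
    have hcase : ∃ e : ℕ, (j - J) + (J - j) = e ∧ ((e : ℝ) - 1) ≤ 2 ^ K * |θ - atom h j| := by
      rcases le_total j J with hle | hle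
      · obtain ⟨e, he⟩ := Nat.exists_eq_add_of_le hle
        refine ⟨e, by omega, ?_⟩
        have := (P.left he).1
        rw [div_le_iff₀ hm] at this
        have h5 := le_abs_self (θ - atom h j)
        nlinarith
      · obtain ⟨e, he⟩ := Nat.exists_eq_add_of_le hle
        refine ⟨e, by omega, ?_⟩
        have := (P.right he).1
        rw [div_le_iff₀ hm] at this
        have h5 := neg_le_abs (θ - atom h j)
        nlinarith
    obtain ⟨e, he, he2⟩ := hcase
    rw [he]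
    rcases Nat.lt_or_ge e 2 with h6 | h6
    · have : (e : ℝ) ≤ 1 := by exact_mod_cast Nat.lt_succ_iff.mp h6
      nlinarith
    · have : (2 : ℝ) ≤ e := by exact_mod_cast h6
      have := P.hε1
      nlinarith
  have h4 : 1 / (2 * (2 ^ K * |θ - atom h j|)) ≤
      1 / (ε * ((((j - J) + (J - j) : ℕ) : ℝ) + 1)) :=
    one_div_le_one_div_of_le (by positivity) key
  have h5 : 1 / 2 ^ K * |cos (π * (θ - atom h j)) / sin (π * (θ - atom h j))| ≤
      1 / 2 ^ K * (1 / (2 * |θ - atom h j|) + 1 / (2 * ε)) :=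
    mul_le_mul_of_nonneg_left h1 (by positivity)
  have h6 : 1 / 2 ^ K * (1 / (2 * |θ - atom h j|) + 1 / (2 * ε)) =
      1 / (2 * (2 ^ K * |θ - atom h j|)) + 1 / (2 * ε * 2 ^ K) := by
    field_simp
  unfold wt
  linarith

/-- The main terms. -/
noncomputable def gg (h : Hsh K M) (θ : ℝ) (J j : ℕ) : ℝ :=
  1 / 2 ^ K * ((if J < j then -1 else 1) *
    (cos (π * (θ - atom h j)) / sin (π * (θ - atom h j))))

theorem Pt.gg_eq {h : Hsh K M} {ε θ : ℝ} {J : ℕ} (P : Pt h ε θ J) {j : ℕ}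
    (hne : j ≠ J) : gg h θ J j =
      1 / 2 ^ K * (cos (π * |θ - atom h j|) / sin (π * |θ - atom h j|)) := by
  have hm : (0 : ℝ) < 2 ^ K := by positivity
  unfold gg
  rcases lt_or_gt_of_ne hne with hlt | hlt
  · obtain ⟨e, he⟩ := Nat.exists_eq_add_of_le hlt.le
    have he1 : (1 : ℝ) ≤ e := by
      have : 1 ≤ e := by omega
      exact_mod_cast this
    have := (P.left he).1
    have h0 : 0 ≤ ((e : ℝ) - 1) / 2 ^ K := div_nonneg (by linarith) hm.le
    rw [if_neg (by omega), one_mul, abs_of_nonneg (by linarith)]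
  · obtain ⟨e, he⟩ := Nat.exists_eq_add_of_le hlt.le
    have he1 : (1 : ℝ) ≤ e := by
      have : 1 ≤ e := by omega
      exact_mod_cast this
    have := (P.right he).1
    have h0 : 0 ≤ ((e : ℝ) - 1) / 2 ^ K := div_nonneg (by linarith) hm.le
    rw [if_pos hlt, abs_of_nonpos (by linarith), mul_neg, cos_neg, sin_neg, div_neg]
    ring

theorem Pt.gg_ge {h : Hsh K M} {ε θ : ℝ} {J : ℕ} (P : Pt h ε θ J) {j : ℕ} (hj : j < 2 ^ K) :
    0 ≤ gg h θ J j + 1 / (2 * ε * 2 ^ K) + if j = J then 1 / (2 * ε) else 0 := by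
  have hε := P.hε
  have hm : (0 : ℝ) < 2 ^ K := by positivity
  by_cases hne : j = J
  · rw [if_pos hne]
    obtain ⟨_, h1⟩ := cot_abs_le P.hε (P.ne hj) (P.abs_le hj)
    have h3 := P.h3 j hj
    have ht : 0 < |θ - atom h j| := abs_pos.mpr (P.ne hj)
    rw [div_le_iff₀ hm] at h3
    have h2 : |gg h θ J j| ≤ 1 / 2 ^ K * (1 / (2 * |θ - atom h j|) + 1 / (2 * ε)) := by
      unfold gg
      rw [abs_mul, abs_mul, abs_of_pos (show (0 : ℝ) < 1 / 2 ^ K by positivity)]
      have : |(if J < j then -1 else 1 : ℝ)| = 1 := by split_ifs <;> simp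
      rw [this, one_mul]
      exact mul_le_mul_of_nonneg_left h1 (by positivity)
    have h4 : 1 / 2 ^ K * (1 / (2 * |θ - atom h j|) + 1 / (2 * ε)) =
        1 / (2 * (|θ - atom h j| * 2 ^ K)) + 1 / (2 * ε * 2 ^ K) := by
      field_simp
    have h5 : 1 / (2 * (|θ - atom h j| * 2 ^ K)) ≤ 1 / (2 * ε) :=
      one_div_le_one_div_of_le (by positivity) (by linarith)
    have h6 := neg_abs_le (gg h θ J j)
    linarith
  · rw [if_neg hne, P.gg_eq hne]
    have ht : 0 < |θ - atom h j| := abs_pos.mpr (P.ne hj)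
    have h1 := cot_ge P.hε ht (P.abs_le hj)
    have h2 := mul_le_mul_of_nonneg_left h1 (show (0 : ℝ) ≤ 1 / 2 ^ K by positivity)
    have h3 : 1 / 2 ^ K * -(1 / (2 * ε)) = -(1 / (2 * ε * 2 ^ K)) := by
      field_simp
    linarith

/-- The main sum is large. -/
theorem Pt.sum_gg {K : ℕ} {h : Hsh K M} {ε θ : ℝ} {J : ℕ} (P : Pt h ε θ J) (hK : 2 ≤ K) :
    ((K : ℝ) - 2) / 16 - 1 / ε ≤ ∑ j ∈ range (2 ^ K), gg h θ J j := by
  obtain ⟨p, rfl⟩ := Nat.exists_eq_add_of_le' hK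
  have hε := P.hε
  have hJ := P.hJ
  have hp : 0 < 2 ^ p := by positivity
  have hp2 : 2 ^ (p + 2) = 4 * 2 ^ p := by ring
  set b : ℕ → ℝ := fun j => gg h θ J j + 1 / (2 * ε * 2 ^ (p + 2)) +
    if j = J then 1 / (2 * ε) else 0 with hb
  have hb0 : ∀ j ∈ range (2 ^ (p + 2)), 0 ≤ b j := fun j hj => P.gg_ge (mem_range.mp hj)
  have hsum : ∑ j ∈ range (2 ^ (p + 2)), b j =
      ∑ j ∈ range (2 ^ (p + 2)), gg h θ J j + 1 / (2 * ε) + 1 / (2 * ε) := by
    rw [hb, sum_add_distrib, sum_add_distrib, sum_ite_eq', if_pos (mem_range.mpr hJ), sum_const,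
      card_range, nsmul_eq_mul]
    congr 2
    push_cast
    field_simp
  have hw : ∃ w : ℕ → ℕ, Set.InjOn w (range (2 ^ p - 1)) ∧
      ∀ i ∈ range (2 ^ p - 1), w i ∈ range (2 ^ (p + 2)) ∧ w i ≠ J ∧
        |θ - atom h (w i)| ≤ ((i : ℝ) + 2) / 2 ^ (p + 2) := by
    rcases Nat.lt_or_ge J (2 * 2 ^ p) with hlt | hge
    · refine ⟨fun i => J + (i + 1), ?_, ?_⟩
      · intro a _ b _ hab
        simp only at hab
        omega
      · intro i hi
        rw [mem_range] at hi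
        refine ⟨mem_range.mpr (by simp only; omega), by simp only; omega, ?_⟩
        have h1 := P.right (j := J + (i + 1)) (e := i + 1) rfl
        have h0 : 0 ≤ (((i + 1 : ℕ) : ℝ) - 1) / 2 ^ (p + 2) := by
          push_cast
          have : (0 : ℝ) ≤ i := by positivity
          exact div_nonneg (by linarith) (by positivity)
        rw [abs_sub_comm, abs_of_nonneg (h0.trans h1.1)]
        refine h1.2.trans (le_of_eq ?_)
        push_cast
        ring
    · refine ⟨fun i => J - (i + 1), ?_, ?_⟩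
      · intro a ha b hb hab
        simp only [coe_range, Set.mem_Iio] at ha hb hab
        omega
      · intro i hi
        rw [mem_range] at hi
        refine ⟨mem_range.mpr (by simp only; omega), by simp only; omega, ?_⟩
        have h1 := P.left (j := J - (i + 1)) (e := i + 1) (by omega)
        have h0 : 0 ≤ (((i + 1 : ℕ) : ℝ) - 1) / 2 ^ (p + 2) := by
          push_cast
          have : (0 : ℝ) ≤ i := by positivity
          exact div_nonneg (by linarith) (by positivity)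
        rw [abs_of_nonneg (h0.trans h1.1)]
        refine h1.2.trans (le_of_eq ?_)
        push_cast
        ring
  obtain ⟨w, hinj, hwp⟩ := hw
  have h1 : ∑ i ∈ range (2 ^ p - 1), b (w i) ≤ ∑ j ∈ range (2 ^ (p + 2)), b j := by
    rw [← sum_image (f := b) hinj]
    refine sum_le_sum_of_subset_of_nonneg ?_ fun i hi _ => hb0 i hi
    intro x hx
    obtain ⟨i, hi, rfl⟩ := mem_image.mp hx
    exact (hwp i hi).1
  have h2 : ∑ i ∈ range (2 ^ p - 1), 1 / 8 * (1 / ((i : ℝ) + 2)) ≤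
      ∑ i ∈ range (2 ^ p - 1), b (w i) := by
    refine sum_le_sum fun i hi => ?_
    obtain ⟨a1, a2, a3⟩ := hwp i hi
    have a1' := mem_range.mp a1
    rw [mem_range] at hi
    have ht : 0 < |θ - atom h (w i)| := abs_pos.mpr (P.ne a1')
    have hi2 : ((i : ℝ) + 2) / 2 ^ (p + 2) ≤ 1 / 4 := by
      rw [div_le_div_iff₀ (by positivity) (by positivity)]
      have : (i + 2) * 4 ≤ 1 * 2 ^ (p + 2) := by omega
      exact_mod_cast this
    have a4 := cot_ge_small ht (a3.trans hi2)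
    have a5 : b (w i) = gg h θ J (w i) + 1 / (2 * ε * 2 ^ (p + 2)) := by
      rw [hb]
      simp only [if_neg a2, add_zero]
    rw [a5, P.gg_eq a2]
    have a6 : 1 / 8 * (1 / ((i : ℝ) + 2)) ≤ 1 / 2 ^ (p + 2) * (1 / (8 * |θ - atom h (w i)|)) := by
      rw [le_div_iff₀ (by positivity)] at a3
      have e1 : 1 / 8 * (1 / ((i : ℝ) + 2)) = 1 / (8 * ((i : ℝ) + 2)) := by
        field_simp
      have e2 : 1 / 2 ^ (p + 2) * (1 / (8 * |θ - atom h (w i)|)) =
          1 / (8 * (|θ - atom h (w i)| * 2 ^ (p + 2))) := by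
        field_simp
      rw [e1, e2]
      exact one_div_le_one_div_of_le (by positivity) (by linarith)
    have a7 := mul_le_mul_of_nonneg_left a4 (show (0 : ℝ) ≤ 1 / 2 ^ (p + 2) by positivity)
    have a8 : 0 ≤ 1 / (2 * ε * 2 ^ (p + 2)) := by positivity
    linarith
  rw [← mul_sum] at h2
  have h3 := harm_lower p
  have h4 : 1 / (2 * ε) + 1 / (2 * ε) = 1 / ε := by
    field_simp
    norm_num
  push_cast
  linarith

/-- A large partial sum at a good point. -/
theorem Pt.large {K : ℕ} {h : Hsh K M} {ε θ : ℝ} {J : ℕ} (P : Pt h ε θ J) (hK : 2 ≤ K) {s : ℝ}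
    (hs0 : 0 ≤ s) (hs : 2 * s ≤ |sin (2 * π * (2 ^ K * 2 ^ (K * M)) * θ)|) :
    ∃ n : ℕ, 2 ^ K ≤ n ∧ n ≤ 2 ^ (K + K * M + 2) ∧
      s * (((K : ℝ) - 2) / 16 - 1 / ε) - ∑ j ∈ range (2 ^ K), wt ε K J j * err h J j - 1 ≤
        |Sm h n θ| := by
  -- the choice of `r`
  have hr : ∃ r : ℕ, 1 ≤ r ∧ r ≤ 2 ∧
      s ≤ |sin (2 * π * ((2 ^ K * (qq h J + 2 ^ (K * M) * r) : ℕ) : ℝ) * θ)| := by
    by_contra hcon
    push Not at hcon
    have h1 := hcon 1 le_rfl (by norm_num)
    have h2 := hcon 2 (by norm_num) le_rfl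
    set X1 := 2 * π * ((2 ^ K * (qq h J + 2 ^ (K * M) * 1) : ℕ) : ℝ) * θ with hX1
    set X2 := 2 * π * ((2 ^ K * (qq h J + 2 ^ (K * M) * 2) : ℕ) : ℝ) * θ with hX2
    have e : 2 * π * (2 ^ K * 2 ^ (K * M)) * θ = X2 - X1 := by
      rw [hX1, hX2]
      push_cast
      ring
    rw [e, sin_sub] at hs
    have h3 : |sin X2 * cos X1 - cos X2 * sin X1| ≤ |sin X2| + |sin X1| := by
      refine (abs_sub _ _).trans ?_
      rw [abs_mul, abs_mul]
      have := abs_cos_le_one X1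
      have := abs_cos_le_one X2
      have := abs_nonneg (sin X1)
      have := abs_nonneg (sin X2)
      nlinarith
    linarith
  obtain ⟨r, hr1, hr2, hr⟩ := hr
  set n : ℕ := 2 ^ K * (qq h J + 2 ^ (K * M) * r) with hn
  have hm : (0 : ℝ) < 2 ^ K := by positivity
  refine ⟨n, ?_, ?_, ?_⟩
  · rw [hn]
    refine Nat.le_mul_of_pos_right _ ?_
    have : 0 < 2 ^ (K * M) * r := by positivity
    omega
  · rw [hn, show K + K * M + 2 = K + (K * M + 2) by ring, pow_add 2 K]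
    refine Nat.mul_le_mul_left _ ?_
    have h1 := qq_le h J
    have h2 : 2 ^ (K * M) * r ≤ 2 ^ (K * M) * 2 := Nat.mul_le_mul_left _ hr2
    have h3 : 2 ^ (K * M + 1) = 2 ^ (K * M) * 2 := pow_succ _ _
    have h4 : 2 ^ (K * M + 2) = 2 ^ (K * M) * 4 := pow_add _ _ _
    omega
  · have hcot : ∀ j ∈ range (2 ^ K), Dn n (θ - atom h j) =
        sin (2 * π * n * (θ - atom h j)) *
          (cos (π * (θ - atom h j)) / sin (π * (θ - atom h j))) +
        cos (2 * π * n * (θ - atom h j)) := by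
      intro j hj
      have hj' := mem_range.mp hj
      exact Dn_eq (cot_abs_le P.hε (P.ne hj') (P.abs_le hj')).1
    have hsplit : Sm h n θ = sin (2 * π * n * θ) * ∑ j ∈ range (2 ^ K), gg h θ J j +
        ∑ j ∈ range (2 ^ K), (sin (2 * π * n * (θ - atom h j)) -
          (if J < j then -1 else 1) * sin (2 * π * n * θ)) *
          (1 / 2 ^ K * (cos (π * (θ - atom h j)) / sin (π * (θ - atom h j)))) +
        ∑ j ∈ range (2 ^ K), 1 / 2 ^ K * cos (2 * π * n * (θ - atom h j)) := by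
      unfold Sm gg
      rw [sum_congr rfl hcot, mul_sum, mul_sum, ← sum_add_distrib, ← sum_add_distrib]
      refine sum_congr rfl fun j _ => ?_
      ring
    have hA := P.sum_gg hK
    set A := ∑ j ∈ range (2 ^ K), gg h θ J j with hAdef
    set E := ∑ j ∈ range (2 ^ K), (sin (2 * π * n * (θ - atom h j)) -
          (if J < j then -1 else 1) * sin (2 * π * n * θ)) *
          (1 / 2 ^ K * (cos (π * (θ - atom h j)) / sin (π * (θ - atom h j)))) with hEdef
    set G := ∑ j ∈ range (2 ^ K), 1 / 2 ^ K * cos (2 * π * n * (θ - atom h j)) with hGdef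
    have hE : |E| ≤ ∑ j ∈ range (2 ^ K), wt ε K J j * err h J j := by
      refine (abs_sum_le_sum_abs _ _).trans (sum_le_sum fun j hj => ?_)
      have hj' := mem_range.mp hj
      rw [abs_mul, mul_comm (wt ε K J j)]
      refine mul_le_mul (sin_phase h P.hJ hj' r θ hn) ?_ (abs_nonneg _) (err_nonneg _ _ _)
      rw [abs_mul, abs_of_pos (show (0 : ℝ) < 1 / 2 ^ K by positivity)]
      exact P.wt_le hj'
    have hG : |G| ≤ 1 := by
      refine (abs_sum_le_sum_abs _ _).trans ?_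
      calc ∑ j ∈ range (2 ^ K), |1 / 2 ^ K * cos (2 * π * n * (θ - atom h j))|
          ≤ ∑ _j ∈ range (2 ^ K), (1 : ℝ) / 2 ^ K := by
            refine sum_le_sum fun j _ => ?_
            rw [abs_mul, abs_of_pos (show (0 : ℝ) < 1 / 2 ^ K by positivity)]
            exact mul_le_of_le_one_right (by positivity) (abs_cos_le_one _)
        _ = 1 := by
            rw [sum_const, card_range, nsmul_eq_mul]
            push_cast
            field_simp
    have hmain : s * (((K : ℝ) - 2) / 16 - 1 / ε) ≤ |sin (2 * π * n * θ) * A| := by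
      rw [abs_mul]
      rcases le_total (((K : ℝ) - 2) / 16 - 1 / ε) 0 with h0 | h0
      · exact (mul_nonpos_of_nonneg_of_nonpos hs0 h0).trans (by positivity)
      · exact mul_le_mul hr (hA.trans (le_abs_self _)) h0 (abs_nonneg _)
    rw [hsplit]
    have t1 := abs_sub_abs_le_abs_add (sin (2 * π * n * θ) * A + E) G
    have t2 := abs_sub_abs_le_abs_add (sin (2 * π * n * θ) * A) E
    linarith

end Vale.Agent.P091
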