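import Vale.Agent.P091.Kernel2

/-!
# The trigonometric polynomials
-/

open Finset Real

namespace Vale.Agent.P091

/-- Splitting a symmetric sum. -/
theorem sum_Icc_succ (c : ℤ → ℂ) (n : ℕ) :
    ∑ k ∈ Icc (-((n + 1 : ℕ) : ℤ)) ((n + 1 : ℕ) : ℤ), c k =
      ∑ k ∈ Icc (-(n : ℤ)) n, c k + (c ((n + 1 : ℕ) : ℤ) + c (-((n + 1 : ℕ) : ℤ))) := by
  have h1 : Icc (-((n + 1 : ℕ) : ℤ)) ((n + 1 : ℕ) : ℤ) =
      insert (((n + 1 : ℕ) : ℤ)) (insert (-((n + 1 : ℕ) : ℤ)) (Icc (-(n : ℤ)) n)) := by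
    ext k
    simp only [mem_Icc, mem_insert]
    push_cast
    omega
  rw [h1, sum_insert, sum_insert]
  · ring
  · simp only [mem_Icc]
    push_cast
    omega
  · simp only [mem_Icc, mem_insert]
    push_cast
    omega

/-- The exponentials. -/
noncomputable def ee (k : ℤ) (t : ℝ) : ℂ := Complex.exp ((2 * π * k * t : ℝ) * Complex.I)

theorem ee_zero (t : ℝ) : ee 0 t = 1 := by simp [ee]

theorem norm_ee (k : ℤ) (t : ℝ) : ‖ee k t‖ = 1 := Complex.norm_exp_ofReal_mul_I _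

theorem ee_sub (k : ℤ) (s t : ℝ) : ee k (s - t) = ee k s * ee k (-t) := by
  unfold ee
  rw [← Complex.exp_add]
  congr 1
  push_cast
  ring

theorem ee_add_neg (k : ℤ) (t : ℝ) : ee k t + ee (-k) t = (2 * cos (2 * π * k * t) : ℝ) := by
  unfold ee
  rw [Complex.exp_mul_I, Complex.exp_mul_I]
  have : ((2 * π * (-k : ℤ) * t : ℝ) : ℂ) = -((2 * π * k * t : ℝ) : ℂ) := by
    push_cast
    ring
  rw [this, Complex.cos_neg, Complex.sin_neg]
  push_cast
  ring

theorem sum_ee (n : ℕ) (t : ℝ) : ∑ k ∈ Icc (-(n : ℤ)) n, ee k t = (Dn n t : ℝ) := by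
  induction n with
  | zero => simp [ee_zero, Dn]
  | succ n ih =>
    rw [sum_Icc_succ, ih, ee_add_neg]
    unfold Dn
    rw [sum_range_succ]
    push_cast
    ring

/-- Cesàro means. -/
theorem cesaro (c : ℤ → ℂ) (R : ℕ) :
    ∑ k ∈ Icc (-(R : ℤ)) R, ((R : ℂ) + 1 - ((|k| : ℤ) : ℂ)) * c k =
      ∑ n ∈ range (R + 1), ∑ k ∈ Icc (-(n : ℤ)) n, c k := by
  induction R with
  | zero => simp
  | succ R ih =>
    rw [sum_range_succ _ (R + 1), ← ih, sum_Icc_succ, sum_Icc_succ]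
    have h1 : ∑ k ∈ Icc (-(R : ℤ)) R, ((((R + 1 : ℕ) : ℂ)) + 1 - ((|k| : ℤ) : ℂ)) * c k =
        ∑ k ∈ Icc (-(R : ℤ)) R, ((R : ℂ) + 1 - ((|k| : ℤ) : ℂ)) * c k +
          ∑ k ∈ Icc (-(R : ℤ)) R, c k := by
      rw [← sum_add_distrib]
      refine sum_congr rfl fun k _ => ?_
      push_cast
      ring
    rw [h1, abs_neg, abs_of_nonneg (by positivity : (0 : ℤ) ≤ ((R + 1 : ℕ) : ℤ))]
    push_cast
    ring

/-- Fejér's identity. -/
theorem fejer (R : ℕ) (t : ℝ) : ∑ n ∈ range (R + 1), Dn n t =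
    (∑ a ∈ range (R + 1), cos (2 * π * a * t)) ^ 2 +
      (∑ a ∈ range (R + 1), sin (2 * π * a * t)) ^ 2 := by
  induction R with
  | zero => simp [Dn]
  | succ R ih =>
    rw [sum_range_succ _ (R + 1), ih, sum_range_succ _ (R + 1), sum_range_succ _ (R + 1)]
    have h1 : ∑ a ∈ range (R + 1), cos (2 * π * a * t) * cos (2 * π * ((R + 1 : ℕ) : ℝ) * t) +
        ∑ a ∈ range (R + 1), sin (2 * π * a * t) * sin (2 * π * ((R + 1 : ℕ) : ℝ) * t) =
        ∑ k ∈ range (R + 1), cos (2 * π * ((k + 1 : ℕ) : ℝ) * t) := by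
      rw [← sum_add_distrib, ← sum_range_reflect]
      refine sum_congr rfl fun a ha => ?_
      rw [mem_range] at ha
      rw [← cos_sub, ← cos_neg]
      congr 1
      obtain ⟨b, hb⟩ := Nat.exists_eq_add_of_le (Nat.lt_succ_iff.mp ha)
      have e1 : R + 1 - 1 - a = b := by omega
      rw [e1, hb]
      push_cast
      ring
    rw [← sum_mul, ← sum_mul] at h1
    have h2 := sin_sq_add_cos_sq (2 * π * ((R + 1 : ℕ) : ℝ) * t)
    unfold Dn
    rw [← h1]
    linear_combination -h2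

theorem fejer_nonneg (R : ℕ) (t : ℝ) : 0 ≤ ∑ n ∈ range (R + 1), Dn n t := by
  rw [fejer]
  positivity

variable {K M : ℕ}

/-- The Fourier coefficients of the atomic measure. -/
noncomputable def muh (h : Hsh K M) (k : ℤ) : ℂ :=
  1 / 2 ^ K * ∑ j ∈ range (2 ^ K), ee k (-atom h j)

theorem muh_zero (h : Hsh K M) : muh h 0 = 1 := by
  unfold muh
  simp [ee_zero]

theorem norm_muh (h : Hsh K M) (k : ℤ) : ‖muh h k‖ ≤ 1 := by
  unfold muh
  rw [norm_mul]
  have h1 : ‖∑ j ∈ range (2 ^ K), ee k (-atom h j)‖ ≤ 2 ^ K := by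
    refine (norm_sum_le _ _).trans (le_of_eq ?_)
    simp [norm_ee]
  have h2 : ‖(1 / 2 ^ K : ℂ)‖ = 1 / 2 ^ K := by simp
  rw [h2]
  calc 1 / 2 ^ K * ‖∑ j ∈ range (2 ^ K), ee k (-atom h j)‖ ≤ 1 / 2 ^ K * 2 ^ K :=
        mul_le_mul_of_nonneg_left h1 (by positivity)
    _ = 1 := by field_simp

theorem sum_muh (h : Hsh K M) (n : ℕ) (θ : ℝ) :
    ∑ k ∈ Icc (-(n : ℤ)) n, muh h k * ee k θ = (Sm h n θ : ℝ) := by
  unfold muh Sm
  push_cast
  simp_rw [← sum_ee, ee_sub]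
  rw [sum_comm, mul_sum]
  refine sum_congr rfl fun k _ => ?_
  rw [mul_assoc, sum_mul]
  congr 1
  refine sum_congr rfl fun j _ => ?_
  ring

/-- The coefficients of the polynomial. -/
noncomputable def aa (h : Hsh K M) (R : ℕ) (k : ℤ) : ℂ :=
  if |k| ≤ R then (1 - ((|k| : ℤ) : ℂ) / (R + 1)) * muh h k else 0

theorem aa_zero (h : Hsh K M) (R : ℕ) : aa h R 0 = 1 := by
  unfold aa
  simp [muh_zero]

theorem aa_of_lt (h : Hsh K M) {R : ℕ} {k : ℤ} (hk : R < |k|) : aa h R k = 0 :=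
  if_neg (by omega)

theorem norm_aa (h : Hsh K M) (R : ℕ) (k : ℤ) : ‖aa h R k‖ ≤ 1 := by
  unfold aa
  split_ifs with hk
  · rw [norm_mul]
    have h1 : (1 - ((|k| : ℤ) : ℂ) / (R + 1)) = ((1 - ((|k| : ℤ) : ℝ) / (R + 1) : ℝ) : ℂ) := by
      simp only [Complex.ofReal_sub, Complex.ofReal_one, Complex.ofReal_div,
        Complex.ofReal_intCast, Complex.ofReal_add, Complex.ofReal_natCast]
    have h2 : ((|k| : ℤ) : ℝ) ≤ R := by exact_mod_cast hk
    have h3 : (0 : ℝ) ≤ ((|k| : ℤ) : ℝ) := by exact_mod_cast abs_nonneg k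
    have h4 : ((|k| : ℤ) : ℝ) / (R + 1) ≤ 1 := by
      rw [div_le_one (by positivity)]
      linarith
    have h5 : 0 ≤ ((|k| : ℤ) : ℝ) / (R + 1) := by positivity
    rw [h1, Complex.norm_real, norm_eq_abs, abs_of_nonneg (by linarith)]
    exact mul_le_one₀ (by linarith) (norm_nonneg _) (norm_muh h k)
  · simp

/-- The polynomial is a Cesàro mean. -/
theorem sum_aa (h : Hsh K M) (R : ℕ) (θ : ℝ) :
    ∑ k ∈ Icc (-(R : ℤ)) R, aa h R k * ee k θ =
      ((1 / ((R : ℝ) + 1) * ∑ n ∈ range (R + 1), Sm h n θ : ℝ) : ℂ) := by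
  have h1 := cesaro (fun k => muh h k * ee k θ) R
  simp_rw [sum_muh] at h1
  push_cast
  rw [← h1, mul_sum]
  refine sum_congr rfl fun k hk => ?_
  rw [mem_Icc] at hk
  have hR : (R : ℂ) + 1 ≠ 0 := by exact_mod_cast R.succ_ne_zero
  rw [aa, if_pos (abs_le.mpr hk)]
  field_simp

theorem sum_Sm_nonneg (h : Hsh K M) (R : ℕ) (θ : ℝ) :
    0 ≤ 1 / ((R : ℝ) + 1) * ∑ n ∈ range (R + 1), Sm h n θ := by
  refine mul_nonneg (by positivity) ?_
  unfold Sm
  rw [← mul_sum, sum_comm]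
  exact mul_nonneg (by positivity) (sum_nonneg fun j _ => fejer_nonneg R _)

/-- The low partial sums of the polynomial. -/
theorem norm_sum_aa_sub (h : Hsh K M) {R n : ℕ} (hn : n * (2 * n + 1) ≤ R) (θ : ℝ) :
    ‖∑ k ∈ Icc (-(n : ℤ)) n, aa h R k * ee k θ - (Sm h n θ : ℝ)‖ ≤ 1 := by
  rw [← sum_muh, ← sum_sub_distrib]
  have hR : (0 : ℝ) < (R : ℝ) + 1 := by positivity
  calc ‖∑ k ∈ Icc (-(n : ℤ)) n, (aa h R k * ee k θ - muh h k * ee k θ)‖
      ≤ ∑ _k ∈ Icc (-(n : ℤ)) n, (n : ℝ) / (R + 1) := by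
        refine norm_sum_le_of_le _ fun k hk => ?_
        rw [mem_Icc] at hk
        have hk' : |k| ≤ n := abs_le.mpr hk
        have hnR : n ≤ R := by nlinarith
        rw [← sub_mul, norm_mul, norm_ee, mul_one, aa, if_pos (by omega)]
        have e : (1 - ((|k| : ℤ) : ℂ) / (R + 1)) * muh h k - muh h k =
            -(((((|k| : ℤ) : ℝ) / (R + 1) : ℝ) : ℂ) * muh h k) := by
          simp only [Complex.ofReal_one, Complex.ofReal_div,
            Complex.ofReal_intCast, Complex.ofReal_add, Complex.ofReal_natCast]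
          ring
        have h2 : ((|k| : ℤ) : ℝ) ≤ n := by exact_mod_cast hk'
        have h3 : (0 : ℝ) ≤ ((|k| : ℤ) : ℝ) := by exact_mod_cast abs_nonneg k
        rw [e, norm_neg, norm_mul, Complex.norm_real, norm_eq_abs,
          abs_of_nonneg (by positivity)]
        calc ((|k| : ℤ) : ℝ) / (R + 1) * ‖muh h k‖ ≤ ((|k| : ℤ) : ℝ) / (R + 1) * 1 :=
              mul_le_mul_of_nonneg_left (norm_muh h k) (by positivity)
          _ ≤ _ := by
              rw [mul_one]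
              exact div_le_div_of_nonneg_right h2 hR.le
    _ = ((n * (2 * n + 1) : ℕ) : ℝ) / (R + 1) := by
        rw [sum_const, Int.card_Icc, nsmul_eq_mul]
        have : ((n : ℤ) + 1 - -(n : ℤ)).toNat = 2 * n + 1 := by omega
        rw [this]
        push_cast
        ring
    _ ≤ 1 := by
        rw [div_le_one hR]
        have : ((n * (2 * n + 1) : ℕ) : ℝ) ≤ R := by exact_mod_cast hn
        linarith

end Vale.Agent.P091
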