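import Vale.Agent.P091.Good

/-!
# One stage of the gliding hump
-/

open Finset Real MeasureTheory AddCircle Filter Asymptotics

namespace Vale.Agent.P091

variable {T : ℝ} [hT : Fact (0 < T)]

omit hT in
theorem norm_psum_le {a : ℤ → ℂ} (ha : ∀ k, ‖a k‖ ≤ 1) (n : ℕ) (x : AddCircle T) :
    ‖psum a n x‖ ≤ 2 * n + 1 := by
  unfold psum
  calc ‖∑ k ∈ Icc (-(n : ℤ)) n, a k * fourier k x‖ ≤ ∑ _k ∈ Icc (-(n : ℤ)) n, (1 : ℝ) := by
        refine norm_sum_le_of_le _ fun k _ => ?_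
        rw [norm_mul]
        have : ‖fourier k x‖ = 1 := Circle.norm_coe _
        rw [this, mul_one]
        exact ha k
    _ = 2 * n + 1 := by
        rw [sum_const, Int.card_Icc, nsmul_eq_mul, mul_one]
        have : ((n : ℤ) + 1 - -(n : ℤ)).toNat = 2 * n + 1 := by omega
        rw [this]
        push_cast
        ring

omit hT in
theorem psum_of_le {a : ℤ → ℂ} {R n : ℕ} (ha : ∀ k : ℤ, (R : ℤ) < |k| → a k = 0) (hn : R ≤ n)
    (x : AddCircle T) : psum a n x = psum a R x := by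
  unfold psum
  symm
  refine sum_subset ?_ fun k _ hk => ?_
  · intro k hk
    rw [mem_Icc] at hk ⊢
    omega
  · rw [mem_Icc, not_and_or] at hk
    rw [ha k (by
      rcases hk with hk | hk
      · rw [lt_abs]; right; omega
      · rw [lt_abs]; left; omega), zero_mul]

variable {ε c : ℝ} {K R : ℕ} {a : ℤ → ℂ} {p : AddCircle T → ℝ}

theorem Good.continuous (G : Good T ε c K R a p) : Continuous p := by
  have h : p = fun x => (psum a R x).re := by
    ext x
    rw [← G.eq, Complex.ofReal_re]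
  rw [h]
  exact Complex.continuous_re.comp (continuous_psum a R)

theorem Good.le (G : Good T ε c K R a p) (x : AddCircle T) : p x ≤ 2 * R + 1 := by
  have h := norm_psum_le G.norm R x
  rw [← G.eq, Complex.norm_real, norm_eq_abs] at h
  exact (le_abs_self _).trans h

theorem Good.coeff (G : Good T ε c K R a p) (k : ℤ) :
    fourierCoeff (fun x => (p x : ℂ)) k = a k := by
  have h : (fun x => (p x : ℂ)) =
      ∑ j ∈ Icc (-(R : ℤ)) R, fun x : AddCircle T => a j * fourier j x := by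
    ext x
    rw [G.eq, psum, Finset.sum_apply]
  rw [h, fourierCoeff.sum, Finset.sum_apply]
  · have h2 : ∀ j ∈ Icc (-(R : ℤ)) R,
        fourierCoeff (fun x : AddCircle T => a j * fourier j x) k = if k = j then a k else 0 := by
      intro j _
      rw [fourierCoeff.const_mul]
      have := congrFun (fourierCoeff_fourier (T := T) j) k
      rw [this, Pi.single_apply]
      split_ifs with h3
      · rw [h3, mul_one]
      · rw [mul_zero]
    rw [sum_congr rfl h2, sum_ite_eq]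
    split_ifs with h3
    · rfl
    · symm
      refine G.supp k ?_
      rw [mem_Icc, not_and_or] at h3
      rcases h3 with hk | hk
      · rw [lt_abs]; right; omega
      · rw [lt_abs]; left; omega
  · intro j _
    exact (continuous_const.mul (fourier j).continuous).integrable_of_hasCompactSupport
      (HasCompactSupport.of_compactSpace _)

theorem Good.integrable (G : Good T ε c K R a p) : Integrable p haarAddCircle :=
  G.continuous.integrable_of_hasCompactSupport (HasCompactSupport.of_compactSpace _)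

theorem Good.integral (G : Good T ε c K R a p) : ∫ x, p x ∂haarAddCircle = 1 := by
  have h := G.coeff 0
  rw [G.zero] at h
  unfold fourierCoeff at h
  simp only [neg_zero, fourier_zero, one_smul] at h
  have h2 : ∫ x, (p x : ℂ) ∂haarAddCircle = ((∫ x, p x ∂haarAddCircle : ℝ) : ℂ) :=
    integral_ofReal
  rw [h2] at h
  exact_mod_cast h

/-- The truncated Young function. -/
noncomputable def psi (φ : ℝ → ℝ) (u : ℝ) : ℝ := if 1 < u then φ u else 0

/-- Arithmetic of the Orlicz bound. -/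
theorem stage_arith {c N S f q : ℝ} (k : ℕ) (hc : 0 < c) (hN : 0 < N) (hS : 0 < S) (hq : 0 < q)
    (h : f * 2 ^ (k + 1) * S * 2 ^ (k + 1) / c ≤ N) :
    (f + (1 / 2) ^ (k + 1) * c / (q * 2 ^ (k + 1) * S) * (q * N)) * 2 ^ (k + 1) * (S / (c * N)) ≤
      (1 / 2) ^ k := by
  have h2 : (2 : ℝ) ^ (k + 1) * (1 / 2) ^ (k + 1) = 1 := by
    rw [← mul_pow]
    norm_num
  generalize (2 : ℝ) ^ (k + 1) = t at h h2 ⊢
  have e5 : (1 / 2 : ℝ) ^ k = (1 / 2) ^ (k + 1) + (1 / 2) ^ (k + 1) := by ring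
  rw [e5]
  have hr0 : (0 : ℝ) ≤ (1 / 2) ^ (k + 1) := by positivity
  generalize (1 / 2 : ℝ) ^ (k + 1) = r at h2 hr0 ⊢
  have ht : t ≠ 0 := left_ne_zero_of_mul (h2 ▸ one_ne_zero)
  have e1 : (f + r * c / (q * t * S) * (q * N)) * t * (S / (c * N)) =
      f * t * S / (c * N) + r := by
    field_simp
  rw [e1]
  have e3 : f * t * S / (c * N) ≤ r := by
    rw [div_le_iff₀ (by positivity)]
    rw [div_le_iff₀ hc] at h
    have := mul_le_mul_of_nonneg_right h hr0
    have e4 : f * t * S * t * r = f * t * S := by rw [mul_assoc _ t r, h2, mul_one]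
    rw [e4] at this
    linarith
  linarith

/-- The Orlicz bound for one value. -/
theorem psi_le {φ : ℝ → ℝ} (hφ : MonotoneOn φ (Set.Ici 0)) (hφ0 : ∀ u, 0 ≤ u → 0 ≤ φ u)
    {u₀ η q W : ℝ} (hη : 0 ≤ η) (hq0 : 0 ≤ q)
    (hu₀ : ∀ b ≥ u₀, ‖φ b‖ ≤ η * ‖b * √(log b)‖) (hq : √(log W) ≤ q)
    {w : ℝ} (hw0 : 0 ≤ w) (hw1 : w ≤ W) : psi φ w ≤ (φ (max u₀ 1) + η * q) * w := by
  have hu1 : 1 ≤ max u₀ 1 := le_max_right _ _
  have hφu : 0 ≤ φ (max u₀ 1) := hφ0 _ (by linarith)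
  have hnn : 0 ≤ η * q := by positivity
  unfold psi
  split_ifs with h1
  · rcases le_total w (max u₀ 1) with h2 | h2
    · have h3 : φ w ≤ φ (max u₀ 1) :=
        hφ (Set.mem_Ici.mpr hw0) (Set.mem_Ici.mpr (by linarith)) h2
      nlinarith
    · have h3 := hu₀ w ((le_max_left _ _).trans h2)
      rw [norm_eq_abs, norm_eq_abs, abs_of_nonneg (hφ0 w hw0),
        abs_of_nonneg (mul_nonneg hw0 (sqrt_nonneg _))] at h3
      have h4 : √(log w) ≤ q := (sqrt_le_sqrt (log_le_log (by linarith) hw1)).trans hq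
      have h5 : η * (w * √(log w)) ≤ η * (w * q) :=
        mul_le_mul_of_nonneg_left (mul_le_mul_of_nonneg_left h4 hw0) hη
      have h6 : 0 ≤ φ (max u₀ 1) * w := mul_nonneg hφu hw0
      nlinarith
  · exact mul_nonneg (by positivity) hw0

/-- The Orlicz bound for the polynomial. -/
theorem Good.lintegral_psi (G : Good T ε c K R a p) {φ : ℝ → ℝ} {D β W : ℝ} (hD : 0 ≤ D)
    (hβ : 0 ≤ β) (h : ∀ w, 0 ≤ w → w ≤ W → psi φ w ≤ D * w) (hW : ∀ x, β * p x ≤ W) :
    ∫⁻ x, ENNReal.ofReal (psi φ (β * p x)) ∂haarAddCircle ≤ ENNReal.ofReal (D * β) := by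
  calc ∫⁻ x, ENNReal.ofReal (psi φ (β * p x)) ∂haarAddCircle
      ≤ ∫⁻ x, ENNReal.ofReal (D * β * p x) ∂haarAddCircle := by
        refine lintegral_mono fun x => ENNReal.ofReal_le_ofReal ?_
        refine (h _ (mul_nonneg hβ (G.nonneg x)) (hW x)).trans (le_of_eq ?_)
        ring
    _ = ENNReal.ofReal (∫ x, D * β * p x ∂haarAddCircle) := by
        rw [ofReal_integral_eq_lintegral_ofReal (G.integrable.const_mul _)]
        exact Eventually.of_forall fun x => mul_nonneg (by positivity) (G.nonneg x)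
    _ = ENNReal.ofReal (D * β) := by
        rw [integral_const_mul, G.integral, mul_one]

/-- The growth of the degree. -/
theorem sqrt_log_le {C N R : ℕ} (hN : 1 ≤ N) (hR : R ≤ 2 ^ (C * N ^ 2)) :
    √(log (2 * R + 1)) ≤ √(C + 2) * N := by
  have h1 : (2 * (R : ℝ) + 1) ≤ 2 ^ (C * N ^ 2 + 2) := by
    have h2 : 2 * R + 1 ≤ 2 ^ (C * N ^ 2 + 2) := by
      have : 1 ≤ 2 ^ (C * N ^ 2) := Nat.one_le_two_pow
      rw [pow_add]
      omega
    exact_mod_cast h2
  have hN1 : (1 : ℝ) ≤ N := by exact_mod_cast hN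
  have h3 : log (2 * R + 1) ≤ (C + 2) * (N : ℝ) ^ 2 := by
    calc log (2 * R + 1) ≤ log (2 ^ (C * N ^ 2 + 2)) := log_le_log (by positivity) h1
      _ = ((C * N ^ 2 + 2 : ℕ) : ℝ) * log 2 := log_pow _ _
      _ ≤ ((C * N ^ 2 + 2 : ℕ) : ℝ) * 1 := by
          refine mul_le_mul_of_nonneg_left ?_ (by positivity)
          have := log_two_lt_d9
          linarith
      _ ≤ _ := by
          push_cast
          nlinarith
  calc √(log (2 * R + 1)) ≤ √((C + 2) * (N : ℝ) ^ 2) := sqrt_le_sqrt h3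
    _ = √(C + 2) * N := by
        rw [sqrt_mul (by positivity), sqrt_sq (by linarith)]

/-- One stage. -/
theorem exists_stage (T : ℝ) [hT : Fact (0 < T)] {φ : ℝ → ℝ} (hφ : MonotoneOn φ (Set.Ici 0))
    (hφ0 : ∀ u, 0 ≤ u → 0 ≤ φ u) (hφo : φ =o[atTop] fun u => u * √(log u)) (k R₀ : ℕ) {B : ℝ}
    (hB : 0 ≤ B) : ∃ (c α : ℝ) (K R : ℕ) (a : ℤ → ℂ) (p : AddCircle T → ℝ),
      Good T ((1 / 2) ^ k) c K R a p ∧ 0 < α ∧ R₀ ≤ 2 ^ K ∧ R₀ ≤ R ∧
      α * (2 * R₀ + 1) ≤ (1 / 2) ^ k ∧ k + 2 + B ≤ α * (c * K) ∧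
      ∫⁻ x, ENNReal.ofReal (psi φ (2 ^ (k + 1) * α * p x)) ∂haarAddCircle ≤
        ENNReal.ofReal ((1 / 2) ^ k) := by
  obtain ⟨c, hc, C, K₀, hgood⟩ := exists_good T (δ := (1 / 2 : ℝ) ^ k) (by positivity)
  obtain ⟨S, hS⟩ : ∃ S : ℝ, S = k + 2 + B := ⟨_, rfl⟩
  have hS0 : 0 < S := by rw [hS]; positivity
  have hq0 : 0 < √((C : ℝ) + 2) := sqrt_pos.mpr (by positivity)
  have hη0 : 0 < (1 / 2) ^ (k + 1) * c / (√(C + 2) * 2 ^ (k + 1) * S) := by positivity
  obtain ⟨u₀, hu₀⟩ := eventually_atTop.mp (hφo.bound hη0)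
  have hφu : 0 ≤ φ (max u₀ 1) := hφ0 _ (zero_le_one.trans (le_max_right _ _))
  obtain ⟨N, q1, q2, q3, q4, q5, q6⟩ : ∃ N : ℕ, S * (2 * R₀ + 1) * 2 ^ k / c ≤ N ∧
      2 ^ (k + 1) * S / c ≤ N ∧ φ (max u₀ 1) * 2 ^ (k + 1) * S * 2 ^ (k + 1) / c ≤ N ∧
      R₀ ≤ N ∧ K₀ ≤ N ∧ 1 ≤ N := by
    refine ⟨max (max (max ⌈S * (2 * R₀ + 1) * 2 ^ k / c⌉₊ ⌈2 ^ (k + 1) * S / c⌉₊)
      ⌈φ (max u₀ 1) * 2 ^ (k + 1) * S * 2 ^ (k + 1) / c⌉₊) (max R₀ (max K₀ 1)), ?_, ?_, ?_,
      ?_, ?_, ?_⟩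
    · refine (Nat.le_ceil _).trans (Nat.cast_le.mpr ?_)
      omega
    · refine (Nat.le_ceil _).trans (Nat.cast_le.mpr ?_)
      omega
    · refine (Nat.le_ceil _).trans (Nat.cast_le.mpr ?_)
      omega
    · omega
    · omega
    · omega
  have q4' : (1 : ℝ) ≤ N := by exact_mod_cast q6
  have hN0 : (0 : ℝ) < N := by linarith
  obtain ⟨R, hR, a, p, G⟩ := hgood N q5
  have hR₀N : R₀ ≤ 2 ^ N := q4.trans Nat.lt_two_pow_self.le
  have hα : 0 < S / (c * N) := by positivity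
  refine ⟨c, S / (c * N), N, R, a, p, G, hα, hR₀N, hR₀N.trans G.big, ?_, ?_, ?_⟩
  · rw [div_mul_eq_mul_div, div_le_iff₀ (by positivity)]
    rw [div_le_iff₀ hc] at q1
    have e : (1 / 2 : ℝ) ^ k * (c * N) = (N * c) * (1 / 2) ^ k := by ring
    have e2 : S * (2 * R₀ + 1) = (S * (2 * R₀ + 1) * 2 ^ k) * (1 / 2) ^ k := by
      rw [mul_assoc (S * (2 * (R₀ : ℝ) + 1)), ← mul_pow]
      norm_num
    rw [e, e2]
    exact mul_le_mul_of_nonneg_right q1 (by positivity)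
  · refine le_of_eq ?_
    rw [← hS]
    field_simp
  · -- the Orlicz bound
    have h1 : 2 ^ (k + 1) * (S / (c * N)) ≤ 1 := by
      rw [mul_div_assoc', div_le_one (by positivity)]
      rw [div_le_iff₀ hc] at q2
      linarith
    have hw : ∀ x, 2 ^ (k + 1) * (S / (c * N)) * p x ≤ 2 * R + 1 := fun x =>
      (mul_le_mul_of_nonneg_right h1 (G.nonneg x)).trans (by
        rw [one_mul]
        exact G.le x)
    refine (G.lintegral_psi (by positivity) (by positivity)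
      (fun w hw0 hw1 => psi_le hφ hφ0 hη0.le (by positivity) hu₀ (sqrt_log_le q6 hR) hw0 hw1)
      hw).trans (ENNReal.ofReal_le_ofReal ?_)
    rw [← mul_assoc]
    exact stage_arith k hc hN0 hS0 hq0 q3

end Vale.Agent.P091
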